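import Mathlib

open MeasureTheory Set
open scoped ENNReal Real

namespace Vale.Agent.P243sym

theorem integral_abs_cos_period (θ : ℝ) : ∫ x in (0:ℝ)..π, |Real.cos (x - θ)| = 2 := by
  have hper : Function.Periodic (fun x : ℝ => |Real.cos x|) π := by
    intro x
    simp [Real.cos_add_pi]
  have h1 : ∫ x in (0:ℝ)..π, |Real.cos (x - θ)| = ∫ x in (0 - θ)..(π - θ), |Real.cos x| :=
    intervalIntegral.integral_comp_sub_right (fun x => |Real.cos x|) θ
  have h2 : ∫ x in (0 - θ)..(0 - θ + π), |Real.cos x| = ∫ x in (-(π/2))..(-(π/2) + π), |Real.cos x| :=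
    hper.intervalIntegral_add_eq _ _
  rw [h1, show π - θ = 0 - θ + π by ring, h2, show -(π / 2) + π = π / 2 by ring]
  have h3 : ∫ x in (-(π/2))..(π/2), |Real.cos x| = ∫ x in (-(π/2))..(π/2), Real.cos x := by
    apply intervalIntegral.integral_congr
    intro x hx
    rw [Set.uIcc_of_le (by linarith [Real.pi_pos])] at hx
    exact abs_of_nonneg (Real.cos_nonneg_of_mem_Icc hx)
  rw [h3, integral_cos, Real.sin_neg, Real.sin_pi_div_two]
  norm_num

theorem integral_abs_cos_sin (a b : ℝ) :
    ∫ x in (0:ℝ)..π, |Real.cos x * a + Real.sin x * b| = 2 * √(a ^ 2 + b ^ 2) := by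
  set z : ℂ := ⟨a, b⟩ with hz
  have hn : ‖z‖ = √(a ^ 2 + b ^ 2) := by
    rw [Complex.norm_def, Complex.normSq_apply, hz]
    congr 1; ring
  have h1 : ∀ x : ℝ, |Real.cos x * a + Real.sin x * b| = ‖z‖ * |Real.cos (x - z.arg)| := by
    intro x
    have ha : a = ‖z‖ * Real.cos z.arg := (Complex.norm_mul_cos_arg z).symm
    have hb : b = ‖z‖ * Real.sin z.arg := (Complex.norm_mul_sin_arg z).symm
    conv_lhs => rw [ha, hb]
    rw [Real.cos_sub, ← abs_of_nonneg (norm_nonneg z), ← abs_mul, abs_of_nonneg (norm_nonneg z)]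
    congr 1; ring
  simp only [h1]
  rw [intervalIntegral.integral_const_mul, integral_abs_cos_period, hn]
  ring

theorem integral_sq_cos_sin (a b : ℝ) :
    ∫ x in (0:ℝ)..π, (Real.cos x * a + Real.sin x * b) ^ 2 = π / 2 * (a ^ 2 + b ^ 2) := by
  have h1 : ∀ x : ℝ, (Real.cos x * a + Real.sin x * b) ^ 2
      = a ^ 2 * Real.cos x ^ 2 + (2 * a * b) * (Real.sin x * Real.cos x)
        + b ^ 2 * Real.sin x ^ 2 := by
    intro x; ring
  simp only [h1]
  rw [intervalIntegral.integral_add, intervalIntegral.integral_add,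
    intervalIntegral.integral_const_mul, intervalIntegral.integral_const_mul,
    intervalIntegral.integral_const_mul, integral_cos_sq, integral_sin_sq, integral_sin_mul_cos₁]
  · simp
    ring
  all_goals
    apply Continuous.intervalIntegrable
    fun_prop

/-- The averaging lemma. -/
theorem exists_angle {ι : Type*} [Fintype ι] (hcard : Fintype.card ι ≤ 4) (c α β γ : ι → ℝ)
    (hc : ∀ i, 0 ≤ c i) (hsum : ∑ i, c i = 2) (hαα : ∑ i, c i * α i ^ 2 = 1)
    (hαβ : ∑ i, c i * (α i * β i) = 0) (hαγ : ∑ i, c i * (α i * γ i) = 0)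
    (hunit : ∀ i, α i ^ 2 + β i ^ 2 + γ i ^ 2 = 1) :
    ∃ a b : ℝ, a ^ 2 + b ^ 2 = 1 ∧
      2 * ∑ i, ∑ j, c i * c j * |α i * (a * β j + b * γ j) - α j * (a * β i + b * γ i)|
        < 6.24 * ∑ i, c i * (a * β i + b * γ i) ^ 2 := by
  classical
  by_contra hcon
  push Not at hcon
  set A : ι → ι → ℝ := fun i j => α i * β j - α j * β i with hA
  set B : ι → ι → ℝ := fun i j => α i * γ j - α j * γ i with hB
  have hle : ∀ x : ℝ, 6.24 * ∑ i, c i * (Real.cos x * β i + Real.sin x * γ i) ^ 2
      ≤ 2 * ∑ i, ∑ j, c i * c j * |Real.cos x * A i j + Real.sin x * B i j| := by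
    intro x
    have := hcon (Real.cos x) (Real.sin x) (by rw [add_comm]; exact Real.sin_sq_add_cos_sq x)
    refine this.trans (le_of_eq ?_)
    congr 1
    refine Finset.sum_congr rfl fun i _ => Finset.sum_congr rfl fun j _ => ?_
    congr 2
    simp only [hA, hB]; ring
  have hint : ∫ x in (0:ℝ)..π, 6.24 * ∑ i, c i * (Real.cos x * β i + Real.sin x * γ i) ^ 2
      ≤ ∫ x in (0:ℝ)..π, 2 * ∑ i, ∑ j, c i * c j * |Real.cos x * A i j + Real.sin x * B i j| := by
    apply intervalIntegral.integral_mono_on Real.pi_pos.le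
    · apply Continuous.intervalIntegrable
      fun_prop
    · apply Continuous.intervalIntegrable
      fun_prop
    · intro x _
      exact hle x
  have hL : ∫ x in (0:ℝ)..π, 6.24 * ∑ i, c i * (Real.cos x * β i + Real.sin x * γ i) ^ 2
      = 6.24 * (π / 2) := by
    rw [intervalIntegral.integral_const_mul, intervalIntegral.integral_finsetSum]
    · simp only [intervalIntegral.integral_const_mul, integral_sq_cos_sin]
      congr 1
      have : ∀ i, c i * (π / 2 * (β i ^ 2 + γ i ^ 2))
          = π / 2 * c i - π / 2 * (c i * α i ^ 2) := by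
        intro i
        have := hunit i
        have e : β i ^ 2 + γ i ^ 2 = 1 - α i ^ 2 := by linarith
        rw [e]; ring
      simp only [this]
      rw [Finset.sum_sub_distrib, ← Finset.mul_sum, ← Finset.mul_sum, hsum, hαα]
      ring
    · intro i _
      apply Continuous.intervalIntegrable
      fun_prop
  have hR : ∫ x in (0:ℝ)..π, 2 * ∑ i, ∑ j, c i * c j * |Real.cos x * A i j + Real.sin x * B i j|
      = 4 * ∑ i, ∑ j, c i * c j * √(A i j ^ 2 + B i j ^ 2) := by
    rw [intervalIntegral.integral_const_mul, intervalIntegral.integral_finsetSum]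
    · rw [show (4:ℝ) = 2 * 2 by norm_num, mul_assoc]
      congr 1
      rw [Finset.mul_sum]
      refine Finset.sum_congr rfl fun i _ => ?_
      rw [intervalIntegral.integral_finsetSum]
      · rw [Finset.mul_sum]
        refine Finset.sum_congr rfl fun j _ => ?_
        rw [intervalIntegral.integral_const_mul, integral_abs_cos_sin]
        ring
      · intro j _
        apply Continuous.intervalIntegrable
        fun_prop
    · intro i _
      apply Continuous.intervalIntegrable
      fun_prop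
  rw [hL, hR] at hint
  -- Cauchy and Schwarz
  have hbound : ∀ i j, c i * c j * √(A i j ^ 2 + B i j ^ 2)
      ≤ c i * c j * (1.225 / 2 * (A i j ^ 2 + B i j ^ 2)
          + (if i = j then 0 else 1) * (1 / 2.45)) := by
    intro i j
    apply mul_le_mul_of_nonneg_left _ (mul_nonneg (hc i) (hc j))
    by_cases hij : i = j
    · subst hij
      simp [hA, hB]
    · rw [if_neg hij]
      set s := √(A i j ^ 2 + B i j ^ 2) with hs
      have hs2 : s ^ 2 = A i j ^ 2 + B i j ^ 2 := Real.sq_sqrt (by positivity)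
      rw [← hs2]
      nlinarith [sq_nonneg (1.225 * s - 1)]
  have hsumle : ∑ i, ∑ j, c i * c j * √(A i j ^ 2 + B i j ^ 2)
      ≤ ∑ i, ∑ j, c i * c j * (1.225 / 2 * (A i j ^ 2 + B i j ^ 2)
          + (if i = j then 0 else 1) * (1 / 2.45)) :=
    Finset.sum_le_sum fun i _ => Finset.sum_le_sum fun j _ => hbound i j
  have hs1 : ∑ i, ∑ j, c i * c j * (A i j ^ 2 + B i j ^ 2) = 2 := by
    have e : ∀ i j, c i * c j * (A i j ^ 2 + B i j ^ 2)
        = (c i * α i ^ 2) * (c j * (1 - α j ^ 2)) + (c i * (1 - α i ^ 2)) * (c j * α j ^ 2)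
          - 2 * ((c i * (α i * β i)) * (c j * (α j * β j)))
          - 2 * ((c i * (α i * γ i)) * (c j * (α j * γ j))) := by
      intro i j
      have h1 : 1 - α j ^ 2 = β j ^ 2 + γ j ^ 2 := by linarith [hunit j]
      have h2 : 1 - α i ^ 2 = β i ^ 2 + γ i ^ 2 := by linarith [hunit i]
      rw [h1, h2]
      simp only [hA, hB]
      ring
    have f1 : ∑ i, c i * (1 - α i ^ 2) = 1 := by
      simp only [mul_sub, mul_one]
      rw [Finset.sum_sub_distrib, hsum, hαα]; norm_num
    simp only [e, Finset.sum_sub_distrib, Finset.sum_add_distrib, ← Finset.mul_sum,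
      ← Finset.sum_mul, hαα, hαβ, hαγ, f1]
    norm_num
  have hs2 : ∑ i, ∑ j, c i * c j * (if i = j then (0:ℝ) else 1) ≤ 3 := by
    have e : ∀ i j, c i * c j * (if i = j then (0:ℝ) else 1)
        = c i * c j - (if i = j then c i * c j else 0) := by
      intro i j
      by_cases h : i = j
      · simp [h]
      · simp [h]
    simp only [e, Finset.sum_sub_distrib, Finset.sum_ite_eq, Finset.mem_univ, if_true,
      ← Finset.mul_sum, ← Finset.sum_mul, hsum]
    have h1 : (∑ i, c i) ^ 2 ≤ Fintype.card ι * ∑ i, c i ^ 2 := by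
      have := sq_sum_le_card_mul_sum_sq (s := (Finset.univ : Finset ι)) (f := c)
      simpa using this
    have h2 : ∑ i, c i * c i = ∑ i, c i ^ 2 := Finset.sum_congr rfl fun i _ => by ring
    have h3 : (Fintype.card ι : ℝ) ≤ 4 := by exact_mod_cast hcard
    have h4 : 0 ≤ ∑ i, c i ^ 2 := Finset.sum_nonneg fun i _ => sq_nonneg _
    rw [hsum] at h1
    rw [h2]
    nlinarith
  have hsumeq : ∑ i, ∑ j, c i * c j * (1.225 / 2 * (A i j ^ 2 + B i j ^ 2)
          + (if i = j then 0 else 1) * (1 / 2.45))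
      = 1.225 / 2 * (∑ i, ∑ j, c i * c j * (A i j ^ 2 + B i j ^ 2))
        + (1 / 2.45) * ∑ i, ∑ j, c i * c j * (if i = j then (0:ℝ) else 1) := by
    simp only [Finset.mul_sum, ← Finset.sum_add_distrib]
    refine Finset.sum_congr rfl fun i _ => Finset.sum_congr rfl fun j _ => ?_
    ring
  rw [hsumeq, hs1] at hsumle
  have hpi := Real.pi_gt_d6
  nlinarith

end Vale.Agent.P243sym
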