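import Mathlib

open MeasureTheory
open scoped ENNReal

namespace Vale.Agent.P243

/-- Euclidean three-space. -/
abbrev Space := EuclideanSpace ℝ (Fin 3)

/-- The plane `u^⊥` through the origin orthogonal to `u`, as a linear subspace. -/
noncomputable abbrev plane (u : Space) : Submodule ℝ Space := (ℝ ∙ u)ᗮ

/-- The points of the plane `u^⊥`. -/
abbrev Plane (u : Space) : Type := plane u

/-- The point `b + t u`, where `b` lies in the plane `u^⊥`. -/
noncomputable def point (u : Space) (b : Plane u) (t : ℝ) : Space := (b : Space) + t • u

/-- The cylinder `B + ℝ u` with base `B` in the plane `u^⊥`. -/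
def cylinder (u : Space) (B : Set (Plane u)) : Set Space :=
  {x | ∃ b ∈ B, ∃ t : ℝ, x = point u b t}

/-- The orthogonal projection of `K` onto the plane `u^⊥`: those points `b` of the plane for which
the line `b + ℝ u` meets `K`. -/
def shadow (u : Space) (K : Set Space) : Set (Plane u) := {b | ∃ t : ℝ, point u b t ∈ K}

/-- Two-dimensional Lebesgue measure on the Euclidean plane `u^⊥`. -/
noncomputable def planeMeasure (u : Space) : Measure (Plane u) := volume

/-- The area (Lebesgue outer measure) of a subset of the plane `u^⊥`. -/
noncomputable def area (u : Space) (B : Set (Plane u)) : ℝ≥0∞ := planeMeasure u B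

/-- `A_min(K)`: the smallest area of an orthogonal projection of `K` onto a plane. -/
noncomputable def minShadow (K : Set Space) : ℝ≥0∞ :=
  ⨅ (u : Space) (_ : ‖u‖ = 1), area u (shadow u K)

/-- A convex body: a compact convex set with nonempty interior. -/
def IsConvexBody (K : Set Space) : Prop := IsCompact K ∧ Convex ℝ K ∧ (interior K).Nonempty

/-- `K` is symmetric about the point `z`. -/
def SymmetricAbout (z : Space) (K : Set Space) : Prop := ∀ x ∈ K, (2 : ℝ) • z - x ∈ K

end Vale.Agent.P243
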