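import Vale.Agent.P243_sym.Main
import Vale.Agent.P243_sym.Body

open MeasureTheory Set
open scoped ENNReal

namespace Vale.Agent.P243

theorem shadow_eq (u : Space) (K : Set Space) :
    shadow u K = (ℝ ∙ u)ᗮ.orthogonalProjectionOnto '' K := by
  ext b
  constructor
  · rintro ⟨t, ht⟩
    refine ⟨_, ht, ?_⟩
    exact P243sym.proj_line u b t
  · rintro ⟨x, hx, rfl⟩
    obtain ⟨t, ht⟩ := P243sym.exists_line u x
    refine ⟨t, ?_⟩
    change ((ℝ ∙ u)ᗮ.orthogonalProjectionOnto x : Space) + t • u ∈ K
    rw [← ht]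
    exact hx

theorem minShadow_le (K : Set Space) : minShadow K ≤ P243sym.minShadow K := by
  unfold minShadow P243sym.minShadow
  refine le_iInf fun u => ?_
  have hu : ‖(u : Space)‖ = 1 := by
    have := u.2
    rwa [mem_sphere_zero_iff_norm] at this
  refine iInf₂_le_of_le (u : Space) hu ?_
  rw [shadow_eq]
  exact le_refl _

/-- Bang's half-area inequality for centrally symmetric bodies. -/
theorem symmetric_half_area (K : Set Space) (hK : IsConvexBody K)
    (z : Space) (hsym : SymmetricAbout z K)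
    {m : ℕ} (u : Fin m → Space) (hu : ∀ i, ‖u i‖ = 1) (B : ∀ i, Set (Plane (u i)))
    (hcov : K ⊆ ⋃ i, cylinder (u i) (B i)) :
    ENNReal.ofReal 0.503 * minShadow K ≤ ∑ i, area (u i) (B i) := by
  have h := P243sym.symmetric_half_area K hK.1 hK.2.1 hK.2.2 z hsym u hu
    (fun i => toMeasurable volume (B i)) (fun i => measurableSet_toMeasurable _ _) (by
      intro x hx
      obtain ⟨i, b, hb, t, hbt⟩ := mem_iUnion.1 (hcov hx)
      exact mem_iUnion.2 ⟨i, b, subset_toMeasurable _ _ hb, t, hbt⟩)
  calc ENNReal.ofReal 0.503 * minShadow K ≤ ENNReal.ofReal 0.503 * P243sym.minShadow K := by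
        gcongr; exact minShadow_le K
    _ ≤ _ := h
    _ = _ := by simp only [measure_toMeasurable]; rfl

end Vale.Agent.P243
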