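import Vale.Agent.P243_sym.ZonShadow

open MeasureTheory Set Submodule
open scoped ENNReal InnerProductSpace

namespace Vale.Agent.P243sym

theorem exists_basis_one (e : E3) (he : ‖e‖ = 1) :
    ∃ b : OrthonormalBasis (Fin 3) ℝ E3, b 0 = e := by
  have hv : Orthonormal ℝ (({0} : Set (Fin 3)).domRestrict (fun _ : Fin 3 => e)) := by
    constructor
    · intro i; exact he
    · rintro ⟨i, hi⟩ ⟨j, hj⟩ hij
      rw [mem_singleton_iff] at hi hj
      subst hi; subst hj
      exact absurd rfl hij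
  obtain ⟨b, hb⟩ := hv.exists_orthonormalBasis_extension_of_card_eq (by simp)
  exact ⟨b, hb 0 (mem_singleton _)⟩

theorem exists_basis_two (e f : E3) (he : ‖e‖ = 1) (hf : ‖f‖ = 1) (hef : inner ℝ e f = (0 : ℝ)) :
    ∃ b : OrthonormalBasis (Fin 3) ℝ E3, b 1 = e ∧ b 2 = f := by
  have hv : Orthonormal ℝ (({1, 2} : Set (Fin 3)).domRestrict (![0, e, f] : Fin 3 → E3)) := by
    constructor
    · rintro ⟨i, hi⟩
      rcases hi with rfl | hi
      · exact he
      · rw [mem_singleton_iff] at hi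
        subst hi
        exact hf
    · rintro ⟨i, hi⟩ ⟨j, hj⟩ hij
      rcases hi with rfl | hi
      · rcases hj with rfl | hj
        · exact absurd rfl hij
        · rw [mem_singleton_iff] at hj
          subst hj
          exact hef
      · rw [mem_singleton_iff] at hi
        subst hi
        rcases hj with rfl | hj
        · change inner ℝ f e = (0 : ℝ)
          rw [real_inner_comm]; exact hef
        · rw [mem_singleton_iff] at hj
          subst hj
          exact absurd rfl hij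
  obtain ⟨b, hb⟩ := hv.exists_orthonormalBasis_extension_of_card_eq (by simp)
  exact ⟨b, hb 1 (by simp), hb 2 (by simp)⟩

theorem basis_orth (b : OrthonormalBasis (Fin 3) ℝ E3) (i j : Fin 3) (h : i ≠ j) :
    inner ℝ (b i) (b j) = (0 : ℝ) := by
  have := orthonormal_iff_ite.1 b.orthonormal i j
  rw [this, if_neg h]

theorem basis_unit (b : OrthonormalBasis (Fin 3) ℝ E3) (i : Fin 3) : ‖b i‖ = 1 :=
  b.orthonormal.1 i

/-- weights form of membership in the convex hull of outer products -/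
theorem weights_of_mem (C : Set E3) (P : Fin 3 → Fin 3 → ℝ) (hP : P ∈ convexHull ℝ (outer '' C)) :
    ∃ (N : ℕ) (w : Fin N → ℝ) (n : Fin N → E3), (∀ i, 0 ≤ w i) ∧ ∑ i, w i = 1 ∧ (∀ i, n i ∈ C) ∧
      ∀ x y, bil P x y = ∑ i, w i * (inner ℝ (n i) x * inner ℝ (n i) y) := by
  obtain ⟨w, z, hw, hw1, hz, hsum⟩ := mem_convexHull_pad _ P hP
  choose n hn hnz using hz
  refine ⟨_, w, n, hw, hw1, hn, fun x y => ?_⟩
  rw [← hsum, bil_sum]
  refine Finset.sum_congr rfl fun i _ => ?_
  rw [← hnz i, bil_outer]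

theorem case_one (K : Set E3) (hK : IsCompact K)
    (hsymK : ∀ x ∈ K, -x ∈ K) (A : E3 ≃L[ℝ] E3)
    (P : Fin 3 → Fin 3 → ℝ) (hPmem : P ∈ convexHull ℝ (outer '' Contact K (A : E3 →L[ℝ] E3)))
    (η : E3) (hη : ‖η‖ = 1) (hAη : ‖A η‖ = ‖(A : E3 →L[ℝ] E3)‖)
    (hP : ∀ x y, 2 * bil P x y = inner ℝ x y - inner ℝ η x * inner ℝ η y) :
    ENNReal.ofReal ‖(A : E3 →L[ℝ] E3)‖ * minShadow K
      ≤ ENNReal.ofReal |LinearMap.det (A : E3 →ₗ[ℝ] E3)| * ENNReal.ofReal 6.24 := by
  obtain ⟨b, hb⟩ := exists_basis_one η hη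
  obtain ⟨N, w, n, hw, hw1, hn, hbil⟩ := weights_of_mem _ P hPmem
  have hb1 : inner ℝ η (b 1) = (0 : ℝ) := by rw [← hb]; exact basis_orth b 0 1 (by decide)
  have hb2 : inner ℝ η (b 2) = (0 : ℝ) := by rw [← hb]; exact basis_orth b 0 2 (by decide)
  have h11 : inner ℝ (b 1) (b 1) = (1 : ℝ) := by
    rw [real_inner_self_eq_norm_sq, basis_unit]; norm_num
  have h22 : inner ℝ (b 2) (b 2) = (1 : ℝ) := by
    rw [real_inner_self_eq_norm_sq, basis_unit]; norm_num
  have h12 : inner ℝ (b 1) (b 2) = (0 : ℝ) := basis_orth b 1 2 (by decide)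
  set c : Fin N → ℝ := fun i => 2 * w i with hc
  set a : Fin N → ℝ := fun i => inner ℝ (n i) (b 1) with ha
  set d : Fin N → ℝ := fun i => inner ℝ (n i) (b 2) with hd
  have hform : ∀ x y, ∑ i, c i * (inner ℝ (n i) x * inner ℝ (n i) y)
      = inner ℝ x y - inner ℝ η x * inner ℝ η y := by
    intro x y
    rw [← hP, hbil, Finset.mul_sum]
    refine Finset.sum_congr rfl fun i _ => ?_
    simp only [hc]; ring
  have haa : ∑ i, c i * a i ^ 2 = 1 := by
    have := hform (b 1) (b 1)
    rw [hb1, h11] at this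
    simp only [ha, pow_two]
    rw [this]; norm_num
  have hdd : ∑ i, c i * d i ^ 2 = 1 := by
    have := hform (b 2) (b 2)
    rw [hb2, h22] at this
    simp only [hd, pow_two]
    rw [this]; norm_num
  have had : ∑ i, c i * (a i * d i) = 0 := by
    have := hform (b 1) (b 2)
    rw [hb1, h12] at this
    simp only [ha, hd]
    rw [this]; norm_num
  have hcsum : ∑ i, c i = 2 := by
    simp only [hc]
    rw [← Finset.mul_sum, hw1]; norm_num
  have hc0 : ∀ i, 0 ≤ c i := fun i => by
    simp only [hc]; have := hw i; positivity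
  refine (zon_shadow K hK hsymK A b (by rw [hb]; exact hAη) n hn
    (fun i => (c i * a i, c i * d i)) ?_ ?_).trans ?_
  · intro x
    have := hform (b 1) x
    rw [hb1] at this
    rw [zero_mul, sub_zero] at this
    rw [← this]
    refine Finset.sum_congr rfl fun i _ => ?_
    simp only [ha]; ring
  · intro x
    have := hform (b 2) x
    rw [hb2] at this
    rw [zero_mul, sub_zero] at this
    rw [← this]
    refine Finset.sum_congr rfl fun i _ => ?_
    simp only [hd]; ring
  · gcongr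
    have hb : ∀ i j, |crs (c i * a i, c i * d i) (c j * a j, c j * d j)|
        ≤ c i * c j * ((a i * d j - d i * a j) ^ 2 / 2 + 1 / 2) := by
      intro i j
      have e : crs (c i * a i, c i * d i) (c j * a j, c j * d j)
          = c i * c j * (a i * d j - d i * a j) := by
        simp only [crs]; ring
      rw [e, abs_mul, abs_of_nonneg (mul_nonneg (hc0 i) (hc0 j))]
      apply mul_le_mul_of_nonneg_left _ (mul_nonneg (hc0 i) (hc0 j))
      have := sq_nonneg (|a i * d j - d i * a j| - 1)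
      have h2 := sq_abs (a i * d j - d i * a j)
      nlinarith
    have hS : ∑ i, ∑ j, |crs (c i * a i, c i * d i) (c j * a j, c j * d j)|
        ≤ ∑ i, ∑ j, c i * c j * ((a i * d j - d i * a j) ^ 2 / 2 + 1 / 2) :=
      Finset.sum_le_sum fun i _ => Finset.sum_le_sum fun j _ => hb i j
    have e : ∀ i j, c i * c j * ((a i * d j - d i * a j) ^ 2 / 2 + 1 / 2)
        = 1 / 2 * ((c i * a i ^ 2) * (c j * d j ^ 2)) + 1 / 2 * ((c i * d i ^ 2) * (c j * a j ^ 2))
          - (c i * (a i * d i)) * (c j * (a j * d j)) + 1 / 2 * (c i * c j) := by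
      intro i j; ring
    have hS2 : ∑ i, ∑ j, c i * c j * ((a i * d j - d i * a j) ^ 2 / 2 + 1 / 2) = 3 := by
      simp only [e, Finset.sum_sub_distrib, Finset.sum_add_distrib, ← Finset.mul_sum,
        ← Finset.sum_mul, haa, had, hdd, hcsum]
      norm_num
    rw [hS2] at hS
    linarith

theorem case_two (K : Set E3) (hK : IsCompact K)
    (hsymK : ∀ x ∈ K, -x ∈ K) (A : E3 ≃L[ℝ] E3)
    (P : Fin 3 → Fin 3 → ℝ) (hPmem : P ∈ convexHull ℝ (outer '' Contact K (A : E3 →L[ℝ] E3)))
    (e : E3) (he : ‖e‖ = 1)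
    (hperp : ∀ η : E3, ‖η‖ = 1 → inner ℝ e η = (0 : ℝ) → ‖A η‖ = ‖(A : E3 →L[ℝ] E3)‖)
    (hP : ∀ x, 2 * bil P e x = inner ℝ e x) :
    ENNReal.ofReal ‖(A : E3 →L[ℝ] E3)‖ * minShadow K
      ≤ ENNReal.ofReal |LinearMap.det (A : E3 →ₗ[ℝ] E3)| * ENNReal.ofReal 6.24 := by
  obtain ⟨b', hb'⟩ := exists_basis_one e he
  set L : (Fin 3 → Fin 3 → ℝ) →ₗ[ℝ] (Fin 3 → ℝ) :=
    { toFun := fun X k => bil X e (b' k)
      map_add' := by intro X Y; funext k; exact bil_add X Y _ _
      map_smul' := by intro r X; funext k; exact bil_smul r X _ _ } with hL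
  have hLapp : ∀ X k, L X k = bil X e (b' k) := fun X k => rfl
  have hmem : L P ∈ convexHull ℝ (L '' (outer '' Contact K (A : E3 →L[ℝ] E3))) := by
    rw [← LinearMap.image_convexHull]
    exact mem_image_of_mem L hPmem
  obtain ⟨w, z, hw, hw1, hz, hsum⟩ := mem_convexHull_pad _ _ hmem
  have hcard : Fintype.card (Fin (Module.finrank ℝ (Fin 3 → ℝ) + 1)) ≤ 4 := by simp
  generalize Module.finrank ℝ (Fin 3 → ℝ) + 1 = N at w z hw hw1 hz hsum hcard
  have hz' : ∀ i, ∃ n ∈ Contact K (A : E3 →L[ℝ] E3), L (outer n) = z i := by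
    intro i
    obtain ⟨_, ⟨n, hn, rfl⟩, h⟩ := hz i
    exact ⟨n, hn, h⟩
  choose n hn hnz using hz'
  set c : Fin N → ℝ := fun i => 2 * w i with hc
  have hcsum : ∑ i, c i = 2 := by
    simp only [hc]
    rw [← Finset.mul_sum, hw1]; norm_num
  have hc0 : ∀ i, 0 ≤ c i := fun i => by
    simp only [hc]; have := hw i; positivity
  set α : Fin N → ℝ := fun i => inner ℝ (n i) e with hα
  set β : Fin N → ℝ := fun i => inner ℝ (n i) (b' 1) with hβ
  set γ : Fin N → ℝ := fun i => inner ℝ (n i) (b' 2) with hγ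
  have hk : ∀ k, ∑ i, c i * (α i * inner ℝ (n i) (b' k)) = inner ℝ e (b' k) := by
    intro k
    have h1 := congrFun hsum k
    rw [Finset.sum_apply] at h1
    rw [← hP, ← hLapp, ← h1, Finset.mul_sum]
    refine Finset.sum_congr rfl fun i _ => ?_
    rw [Pi.smul_apply, smul_eq_mul, ← hnz, hLapp, bil_outer]
    simp only [hc, hα]; ring
  have hαα : ∑ i, c i * α i ^ 2 = 1 := by
    have := hk 0
    rw [hb', real_inner_self_eq_norm_sq, he] at this
    simp only [pow_two]
    rw [this]; norm_num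
  have hαβ : ∑ i, c i * (α i * β i) = 0 := by
    have := hk 1
    rw [this, ← hb']
    exact basis_orth b' 0 1 (by decide)
  have hαγ : ∑ i, c i * (α i * γ i) = 0 := by
    have := hk 2
    rw [this, ← hb']
    exact basis_orth b' 0 2 (by decide)
  have hunit : ∀ i, α i ^ 2 + β i ^ 2 + γ i ^ 2 = 1 := by
    intro i
    have := b'.sum_sq_inner_left (n i)
    rw [Fin.sum_univ_three, (hn i).1, hb'] at this
    rw [one_pow] at this
    exact this
  obtain ⟨a, b₀, hab, hlt⟩ := exists_angle hcard c α β γ hc0 hcsum hαα hαβ hαγ hunit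
  set s : Fin N → ℝ := fun i => a * β i + b₀ * γ i with hs
  set σ : E3 := a • b' 1 + b₀ • b' 2 with hσ
  have hσs : ∀ i, inner ℝ (n i) σ = s i := by
    intro i
    rw [hσ, inner_add_right, inner_smul_right, inner_smul_right]
  have hσ1 : ‖σ‖ = 1 := by
    have h1 : ‖σ‖ ^ 2 = 1 := by
      rw [hσ, norm_add_sq_real, norm_smul, norm_smul, inner_smul_left, inner_smul_right,
        basis_unit, basis_unit, basis_orth b' 1 2 (by decide), mul_pow, mul_pow,
        Real.norm_eq_abs, Real.norm_eq_abs, sq_abs, sq_abs]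
      simp only [mul_zero, add_zero, one_pow, mul_one]
      exact hab
    have h2 := norm_nonneg σ
    nlinarith
  set pv : E3 := ∑ i, (c i * s i) • n i with hpv
  have hpvx : ∀ x, inner ℝ pv x = ∑ i, c i * s i * inner ℝ (n i) x := by
    intro x
    rw [hpv, sum_inner]
    refine Finset.sum_congr rfl fun i _ => ?_
    rw [inner_smul_left]; rfl
  have hpve : inner ℝ e pv = (0 : ℝ) := by
    rw [real_inner_comm, hpvx]
    calc ∑ i, c i * s i * inner ℝ (n i) e
        = ∑ i, (a * (c i * (α i * β i)) + b₀ * (c i * (α i * γ i))) := by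
          refine Finset.sum_congr rfl fun i _ => ?_
          simp only [hs, hα]; ring
      _ = 0 := by
          rw [Finset.sum_add_distrib, ← Finset.mul_sum, ← Finset.mul_sum, hαβ, hαγ]; ring
  set g : ℝ := ∑ i, c i * s i ^ 2 with hg
  have hgle : g ≤ ‖pv‖ := by
    have h1 : inner ℝ pv σ = g := by
      rw [hpvx]
      refine Finset.sum_congr rfl fun i _ => ?_
      rw [hσs]; ring
    have h2 := real_inner_le_norm pv σ
    rw [h1, hσ1, mul_one] at h2
    exact h2
  have hT0 : 0 ≤ ∑ i, ∑ j, c i * c j * |α i * s j - α j * s i| :=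
    Finset.sum_nonneg fun i _ => Finset.sum_nonneg fun j _ =>
      mul_nonneg (mul_nonneg (hc0 i) (hc0 j)) (abs_nonneg _)
  have hlt' : 2 * ∑ i, ∑ j, c i * c j * |α i * s j - α j * s i| < 6.24 * g := hlt
  have hgpos : 0 < g := by
    by_contra hcon
    push Not at hcon
    linarith
  have hpvpos : 0 < ‖pv‖ := lt_of_lt_of_le hgpos hgle
  set f : E3 := ‖pv‖⁻¹ • pv with hf
  have hf1 : ‖f‖ = 1 := by rw [hf, norm_smul, norm_inv, norm_norm, inv_mul_cancel₀ hpvpos.ne']
  have hef : inner ℝ e f = (0 : ℝ) := by rw [hf, inner_smul_right, hpve, mul_zero]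
  obtain ⟨b, hb1, hb2⟩ := exists_basis_two e f he hf1 hef
  have hb0 : ‖A (b 0)‖ = ‖(A : E3 →L[ℝ] E3)‖ := by
    apply hperp _ (basis_unit b 0)
    rw [← hb1]
    exact basis_orth b 1 0 (by decide)
  refine (zon_shadow K hK hsymK A b hb0 n hn
    (fun i => (c i * α i, ‖pv‖⁻¹ * (c i * s i))) ?_ ?_).trans ?_
  · intro x
    rw [hb1]
    have hvec : e = ∑ i, (c i * α i) • n i := by
      apply InnerProductSpace.ext_inner_right_basis b'.toBasis
      intro k
      rw [OrthonormalBasis.coe_toBasis, ← hk k, sum_inner]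
      refine Finset.sum_congr rfl fun i _ => ?_
      rw [inner_smul_left]
      simp only [conj_trivial]
      ring
    conv_lhs => rw [hvec]
    rw [sum_inner]
    refine Finset.sum_congr rfl fun i _ => ?_
    rw [inner_smul_left]; rfl
  · intro x
    rw [hb2, hf, inner_smul_left, hpvx, Finset.mul_sum]
    refine Finset.sum_congr rfl fun i _ => ?_
    simp only [conj_trivial]
    ring
  · gcongr
    have e1 : ∀ i j, |crs (c i * α i, ‖pv‖⁻¹ * (c i * s i)) (c j * α j, ‖pv‖⁻¹ * (c j * s j))|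
        = ‖pv‖⁻¹ * (c i * c j * |α i * s j - α j * s i|) := by
      intro i j
      have e2 : crs (c i * α i, ‖pv‖⁻¹ * (c i * s i)) (c j * α j, ‖pv‖⁻¹ * (c j * s j))
          = ‖pv‖⁻¹ * (c i * c j * (α i * s j - α j * s i)) := by
        simp only [crs]; ring
      rw [e2, abs_mul, abs_mul, abs_of_nonneg (mul_nonneg (hc0 i) (hc0 j)),
        abs_of_pos (inv_pos.2 hpvpos)]
    simp only [e1, ← Finset.mul_sum]
    rw [← mul_assoc, mul_comm (2 : ℝ), mul_assoc, inv_mul_le_iff₀ hpvpos]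
    nlinarith

end Vale.Agent.P243sym
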