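import Mathlib

open MeasureTheory Set
open scoped ENNReal

namespace Vale.Agent.P243sym

theorem lintegral_affine (a b : ℝ) (ha : a ≠ 0) (f : ℝ → ℝ≥0∞) (hf : Measurable f) :
    ∫⁻ s, f s = ENNReal.ofReal |a| * ∫⁻ t, f (a * t + b) := by
  have h1 : ∫⁻ s, f s = ∫⁻ s, f (s + b) := by
    rw [lintegral_add_right_eq_self f b]
  rw [h1]
  have hg : Measurable (fun s => f (s + b)) := hf.comp (measurable_add_const b)
  conv_lhs => rw [← Real.smul_map_volume_mul_left ha]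
  rw [lintegral_smul_measure, lintegral_map hg (measurable_const_mul a)]
  rfl

theorem lintegral_arcsin : ∫⁻ s : ℝ, ENNReal.ofReal ((√(1 - s ^ 2))⁻¹) = ENNReal.ofReal Real.pi := by
  have hcont : ContinuousOn Real.arcsin (Icc (-1) 1) := Real.continuous_arcsin.continuousOn
  have hder : ∀ x ∈ Ioo (-1 : ℝ) 1, HasDerivAt Real.arcsin ((√(1 - x ^ 2))⁻¹) x := by
    intro x hx
    have := Real.hasDerivAt_arcsin (x := x) (by linarith [hx.1] : x ≠ -1).symm.symm (ne_of_lt hx.2)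
    simpa using this
  have hint : IntegrableOn (fun x : ℝ => (√(1 - x ^ 2))⁻¹) (Ioc (-1) 1) :=
    intervalIntegral.integrableOn_deriv_of_nonneg hcont hder (fun x _ => by positivity)
  have hval : ∫ x in (-1 : ℝ)..1, (√(1 - x ^ 2))⁻¹ = Real.pi := by
    rw [intervalIntegral.integral_eq_sub_of_hasDerivAt_of_le (by norm_num) hcont hder]
    · simp
    · rw [intervalIntegrable_iff_integrableOn_Ioc_of_le (by norm_num)]
      exact hint
  have hsupp : ∫⁻ s : ℝ, ENNReal.ofReal ((√(1 - s ^ 2))⁻¹)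
      = ∫⁻ s in Ioc (-1 : ℝ) 1, ENNReal.ofReal ((√(1 - s ^ 2))⁻¹) := by
    symm
    apply setLIntegral_eq_of_support_subset
    intro s hs
    simp only [Function.mem_support, ne_eq, ENNReal.ofReal_eq_zero, not_le, inv_pos,
      Real.sqrt_pos] at hs
    constructor <;> nlinarith
  rw [hsupp, ← hval, intervalIntegral.integral_of_le (by norm_num),
    ofReal_integral_eq_lintegral_ofReal hint (Filter.Eventually.of_forall fun x => by positivity)]

theorem lintegral_kappa (κ : ℝ) (hκ : 0 < κ) :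
    ∫⁻ s : ℝ, ENNReal.ofReal ((√(κ - s ^ 2))⁻¹) = ENNReal.ofReal Real.pi := by
  have hs : 0 < √κ := Real.sqrt_pos.2 hκ
  rw [lintegral_affine (√κ) 0 hs.ne' _ (by fun_prop), abs_of_pos hs, ← lintegral_arcsin,
    ← lintegral_const_mul _ (by fun_prop)]
  congr 1
  funext t
  rw [← ENNReal.ofReal_mul hs.le]
  congr 1
  have h1 : κ - (√κ * t + 0) ^ 2 = κ * (1 - t ^ 2) := by
    have := Real.sq_sqrt hκ.le
    nlinarith
  rw [h1, Real.sqrt_mul hκ.le, mul_inv]
  field_simp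

theorem lintegral_kappa_le (κ : ℝ) :
    ∫⁻ s : ℝ, ENNReal.ofReal ((√(κ - s ^ 2))⁻¹) ≤ ENNReal.ofReal Real.pi := by
  rcases lt_or_ge 0 κ with h | h
  · exact (lintegral_kappa κ h).le
  · have : ∀ s : ℝ, ENNReal.ofReal ((√(κ - s ^ 2))⁻¹) = 0 := by
      intro s
      have : √(κ - s ^ 2) = 0 := Real.sqrt_eq_zero'.2 (by nlinarith [sq_nonneg s])
      simp [this]
    simp [this]

theorem lintegral_chord_le {E : Type*} [NormedAddCommGroup E] [InnerProductSpace ℝ E]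
    (w v : E) (hv : v ≠ 0) :
    ∫⁻ t : ℝ, ENNReal.ofReal ((√(1 - ‖w + t • v‖ ^ 2))⁻¹) ≤ ENNReal.ofReal (Real.pi / ‖v‖) := by
  have hv' : 0 < ‖v‖ := norm_pos_iff.2 hv
  set κ : ℝ := 1 - ‖w‖ ^ 2 + (inner ℝ w v / ‖v‖) ^ 2 with hκ
  have key : ∀ t : ℝ, 1 - ‖w + t • v‖ ^ 2 = κ - (‖v‖ * t + inner ℝ w v / ‖v‖) ^ 2 := by
    intro t
    rw [norm_add_sq_real, norm_smul, inner_smul_right, hκ, Real.norm_eq_abs, mul_pow, sq_abs]
    field_simp
    ring
  simp_rw [key]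
  have h := lintegral_affine ‖v‖ (inner ℝ w v / ‖v‖) hv'.ne'
    (fun s => ENNReal.ofReal ((√(κ - s ^ 2))⁻¹)) (by fun_prop)
  have h2 := lintegral_kappa_le κ
  rw [h, abs_of_pos hv'] at h2
  rw [ENNReal.ofReal_div_of_pos hv', ENNReal.le_div_iff_mul_le (by simp [hv]) (by simp), mul_comm]
  exact h2

end Vale.Agent.P243sym
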