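import Mathlib

open MeasureTheory
open scoped ENNReal

namespace Vale.Agent.P243sym

/-- Euclidean three-space. -/
abbrev E3 := EuclideanSpace ℝ (Fin 3)

/-- The cylinder `B + ℝ u` with base `B` in the plane `u^⊥`. -/
def cylinder (u : E3) (B : Set (ℝ ∙ u)ᗮ) : Set E3 :=
  {x | ∃ b ∈ B, ∃ t : ℝ, x = (b : E3) + t • u}

/-- The area of the orthogonal projection of `K` onto the plane `u^⊥`. -/
noncomputable def shadowArea (u : E3) (K : Set E3) : ℝ≥0∞ :=
  volume ((ℝ ∙ u)ᗮ.orthogonalProjectionOnto '' K)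

/-- `A_min(K)`: the smallest area of an orthogonal projection of `K` onto a plane. -/
noncomputable def minShadow (K : Set E3) : ℝ≥0∞ :=
  ⨅ u : Metric.sphere (0 : E3) 1, shadowArea u K

end Vale.Agent.P243sym
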