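import Vale.Agent.P243_sym.Fubini
import Vale.Agent.P243_sym.Chord

open MeasureTheory Set Submodule
open scoped ENNReal InnerProductSpace

namespace Vale.Agent.P243sym

theorem finrank_orth (u : E3) (hu : ‖u‖ = 1) : Module.finrank ℝ (ℝ ∙ u)ᗮ = 2 := by
  have h1 : u ≠ 0 := by
    intro h; simp [h] at hu
  have := Submodule.finrank_add_finrank_orthogonal (ℝ ∙ u)
  rw [finrank_span_singleton h1] at this
  simp at this
  omega

theorem norm_line_sq (u : E3) (hu : ‖u‖ = 1) (y : (ℝ ∙ u)ᗮ) (t : ℝ) :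
    ‖(y : E3) + t • u‖ ^ 2 = ‖y‖ ^ 2 + t ^ 2 := by
  have hy : inner ℝ (y : E3) u = 0 := by
    rw [real_inner_comm]
    exact Submodule.mem_orthogonal_singleton_iff_inner_right.1 y.2
  rw [norm_add_sq_real, inner_smul_right, hy, norm_smul, hu]
  simp

theorem lintegral_ball :
    ∫⁻ x : E3, ENNReal.ofReal ((√(1 - ‖x‖ ^ 2))⁻¹) = ENNReal.ofReal (Real.pi ^ 2) := by
  set u : E3 := EuclideanSpace.single 0 1 with hu
  have hu1 : ‖u‖ = 1 := by simp [hu]
  rw [lintegral_line u hu1 _ (by fun_prop)]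
  have h1 : ∀ y : (ℝ ∙ u)ᗮ, ∫⁻ t : ℝ, ENNReal.ofReal ((√(1 - ‖(y : E3) + t • u‖ ^ 2))⁻¹)
      = (Metric.ball (0 : (ℝ ∙ u)ᗮ) 1).indicator (fun _ => ENNReal.ofReal Real.pi) y := by
    intro y
    have h2 : ∀ t : ℝ, 1 - ‖(y : E3) + t • u‖ ^ 2 = (1 - ‖y‖ ^ 2) - t ^ 2 := by
      intro t; rw [norm_line_sq u hu1]; ring
    simp_rw [h2]
    by_cases hy : ‖y‖ < 1
    · rw [lintegral_kappa _ (by nlinarith [norm_nonneg y]), indicator_of_mem (by simpa using hy)]
    · rw [indicator_of_notMem (by simpa using hy)]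
      have : ∀ s : ℝ, ENNReal.ofReal ((√(1 - ‖y‖ ^ 2 - s ^ 2))⁻¹) = 0 := by
        intro s
        have : √(1 - ‖y‖ ^ 2 - s ^ 2) = 0 :=
          Real.sqrt_eq_zero'.2 (by nlinarith [sq_nonneg s, not_lt.1 hy])
        rw [this]; simp
      simp_rw [this]
      exact lintegral_zero
  haveI : Nontrivial (ℝ ∙ u)ᗮ :=
    Module.nontrivial_of_finrank_pos (R := ℝ) (by rw [finrank_orth u hu1]; norm_num)
  simp_rw [h1]
  rw [lintegral_indicator Metric.isOpen_ball.measurableSet, lintegral_const,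
    Measure.restrict_apply MeasurableSet.univ, univ_inter,
    InnerProductSpace.volume_ball_of_dim_even (k := 1) (by simpa using finrank_orth u hu1)]
  simp [← ENNReal.ofReal_mul Real.pi_pos.le, sq]

end Vale.Agent.P243sym
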