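import Vale.Agent.P243_sym.PartOne

open MeasureTheory Set Submodule
open scoped ENNReal InnerProductSpace

namespace Vale.Agent.P243sym

/-- coordinates with respect to an orthonormal basis, as a measurable equivalence. -/
noncomputable def coordEquiv (b : OrthonormalBasis (Fin 3) ℝ E3) : E3 ≃ᵐ ℝ × (ℝ × ℝ) :=
  (b.measurableEquiv.trans (MeasurableEquiv.toLp 2 (Fin 3 → ℝ)).symm).trans
    ((MeasurableEquiv.piFinSuccAbove (fun _ : Fin 3 => ℝ) 0).trans
      ((MeasurableEquiv.refl ℝ).prodCongr MeasurableEquiv.finTwoArrow))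

theorem coordEquiv_apply (b : OrthonormalBasis (Fin 3) ℝ E3) (x : E3) :
    coordEquiv b x = (b.repr x 0, (b.repr x 1, b.repr x 2)) := by
  rfl

theorem measurePreserving_coordEquiv (b : OrthonormalBasis (Fin 3) ℝ E3) :
    MeasurePreserving (coordEquiv b) volume (volume.prod (volume.prod volume)) := by
  have h1 : MeasurePreserving b.measurableEquiv volume volume := b.measurePreserving_measurableEquiv
  have h2 : MeasurePreserving (MeasurableEquiv.toLp 2 (Fin 3 → ℝ)).symm volume volume :=
    EuclideanSpace.volume_preserving_symm_measurableEquiv_toLp (Fin 3)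
  have h3 := volume_preserving_piFinSuccAbove (fun _ : Fin 3 => ℝ) 0
  have h4 : MeasurePreserving ((MeasurableEquiv.refl ℝ).prodCongr
      (MeasurableEquiv.finTwoArrow (α := ℝ))) (volume.prod volume) (volume.prod (volume.prod volume)) :=
    (MeasurePreserving.id volume).prod (volume_preserving_finTwoArrow ℝ)
  exact h4.comp (h3.comp (h2.comp h1))

theorem measurePreserving_frame (b : OrthonormalBasis (Fin 3) ℝ E3) :
    MeasurePreserving (fun q : ℝ × (ℝ × ℝ) => q.1 • b 0 + q.2.1 • b 1 + q.2.2 • b 2)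
      (volume.prod (volume.prod volume)) volume := by
  have h := (measurePreserving_coordEquiv b).symm
  have e : (fun q : ℝ × (ℝ × ℝ) => q.1 • b 0 + q.2.1 • b 1 + q.2.2 • b 2) = (coordEquiv b).symm := by
    funext q
    rw [eq_comm, MeasurableEquiv.symm_apply_eq, coordEquiv_apply]
    simp [map_add, map_smul]
  rw [e]; exact h

/-- the point with coordinates `q` in the orthonormal basis `b`. -/
noncomputable def framePt (b : OrthonormalBasis (Fin 3) ℝ E3) (q : ℝ × (ℝ × ℝ)) : E3 :=
  q.1 • b 0 + q.2.1 • b 1 + q.2.2 • b 2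

theorem framePt_injective (b : OrthonormalBasis (Fin 3) ℝ E3) : Function.Injective (framePt b) := by
  have e : framePt b = (coordEquiv b).symm := by
    funext q
    rw [eq_comm, MeasurableEquiv.symm_apply_eq, coordEquiv_apply]
    simp [framePt, map_add, map_smul]
  rw [e]
  exact (coordEquiv b).symm.injective

theorem volume_frame_image (b : OrthonormalBasis (Fin 3) ℝ E3) (X : Set (ℝ × (ℝ × ℝ)))
    (hX : IsCompact X) : volume (framePt b '' X) = volume X := by
  have hc : Continuous (framePt b) := by unfold framePt; fun_prop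
  have h := (measurePreserving_frame b).measure_preimage
    ((hX.image hc).isClosed.measurableSet.nullMeasurableSet)
  have h2 : (fun q : ℝ × (ℝ × ℝ) => q.1 • b 0 + q.2.1 • b 1 + q.2.2 • b 2) ⁻¹' (framePt b '' X)
      = X := (framePt_injective b).preimage_image X
  rw [h2] at h
  exact h.symm

theorem volume_linear_image (A : E3 ≃L[ℝ] E3) (X : Set E3) :
    volume (A '' X) = ENNReal.ofReal |LinearMap.det (A : E3 →ₗ[ℝ] E3)| * volume X := by
  exact Measure.addHaar_image_linearMap volume (A : E3 →ₗ[ℝ] E3) X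

/-- Bound for the area of a shadow of `K` in the direction of `A (b 0)`. -/
theorem shadow_le (A : E3 ≃L[ℝ] E3) (b : OrthonormalBasis (Fin 3) ℝ E3) (K : Set E3)
    (hK : IsCompact K) (Z : Set (ℝ × ℝ)) (hZ : IsCompact Z)
    (h : ∀ y ∈ K, ∃ q ∈ Z, ∃ c : ℝ, y = A (framePt b (c, q))) :
    ENNReal.ofReal ‖A (b 0)‖ * shadowArea (‖A (b 0)‖⁻¹ • A (b 0)) K
      ≤ ENNReal.ofReal |LinearMap.det (A : E3 →ₗ[ℝ] E3)| * volume Z := by
  set v : E3 := A (b 0) with hv
  set u : E3 := ‖v‖⁻¹ • v with hu
  have hb0 : b 0 ≠ 0 := b.orthonormal.ne_zero 0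
  have hv0 : v ≠ 0 := by rw [hv]; simpa using hb0
  have hvpos : 0 < ‖v‖ := norm_pos_iff.2 hv0
  have hu1 : ‖u‖ = 1 := by rw [hu, norm_smul, norm_inv, norm_norm, inv_mul_cancel₀ hvpos.ne']
  have hvu : v = ‖v‖ • u := by rw [hu, smul_smul, mul_inv_cancel₀ hvpos.ne', one_smul]
  have hc : Continuous (framePt b) := by unfold framePt; fun_prop
  set X : Set (ℝ × (ℝ × ℝ)) := Icc 0 1 ×ˢ Z with hX
  have hXc : IsCompact X := isCompact_Icc.prod hZ
  set S : Set E3 := A '' (framePt b '' X) with hS
  have hSc : IsCompact S := (hXc.image hc).image A.continuous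
  have hSvol : volume S = ENNReal.ofReal |LinearMap.det (A : E3 →ₗ[ℝ] E3)| * volume Z := by
    rw [hS, volume_linear_image, volume_frame_image b X hXc, hX, Measure.volume_eq_prod,
      Measure.prod_prod]
    simp
  rw [← hSvol]
  have hP : IsCompact ((ℝ ∙ u)ᗮ.orthogonalProjectionOnto '' K) :=
    hK.image (ℝ ∙ u)ᗮ.orthogonalProjectionOnto.continuous
  have hlow : volume S = ∫⁻ y : (ℝ ∙ u)ᗮ, ∫⁻ t : ℝ, S.indicator 1 ((y : E3) + t • u) := by
    rw [← lintegral_line u hu1 _ (measurable_one.indicator hSc.isClosed.measurableSet),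
      lintegral_indicator_one hSc.isClosed.measurableSet]
  rw [hlow, shadowArea, ← setLIntegral_const, ← lintegral_indicator hP.isClosed.measurableSet]
  refine lintegral_mono fun y => ?_
  by_cases hy : y ∈ (ℝ ∙ u)ᗮ.orthogonalProjectionOnto '' K
  · rw [indicator_of_mem hy]
    obtain ⟨x, hx, rfl⟩ := hy
    obtain ⟨q, hq, c, rfl⟩ := h x hx
    set w : E3 := A (framePt b (0, q)) with hw
    have hsplit : ∀ s : ℝ, A (framePt b (s, q)) = w + (s * ‖v‖) • u := by
      intro s
      rw [mul_smul, ← hvu, hv, ← map_smul, ← map_add]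
      congr 1
      simp only [framePt, zero_smul, zero_add]
      abel
    have hproj : (ℝ ∙ u)ᗮ.orthogonalProjectionOnto (A (framePt b (c, q)))
        = (ℝ ∙ u)ᗮ.orthogonalProjectionOnto w := by
      rw [hsplit, map_add, map_smul,
        Submodule.orthogonalProjectionOnto_orthogonalComplement_singleton_eq_zero]
      simp
    rw [hproj]
    obtain ⟨t₀, ht₀⟩ := exists_line u w
    have hmem : ∀ t ∈ Icc t₀ (t₀ + ‖v‖),
        (((ℝ ∙ u)ᗮ.orthogonalProjectionOnto w : (ℝ ∙ u)ᗮ) : E3) + t • u ∈ S := by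
      intro t ht
      refine ⟨framePt b ((t - t₀) / ‖v‖, q), ⟨_, ⟨⟨?_, ?_⟩, hq⟩, rfl⟩, ?_⟩
      · exact div_nonneg (by linarith [ht.1]) hvpos.le
      · rw [div_le_one hvpos]; linarith [ht.2]
      · rw [hsplit, div_mul_cancel₀ _ hvpos.ne', sub_smul]
        conv_lhs => rw [ht₀]
        abel
    calc ENNReal.ofReal ‖v‖ = ∫⁻ t in Icc t₀ (t₀ + ‖v‖), 1 := by
          rw [setLIntegral_one, Real.volume_Icc]; congr 1; ring
      _ = ∫⁻ t, (Icc t₀ (t₀ + ‖v‖)).indicator 1 t := by
          rw [lintegral_indicator measurableSet_Icc]; rfl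
      _ ≤ _ := by
          refine lintegral_mono fun t => ?_
          by_cases ht : t ∈ Icc t₀ (t₀ + ‖v‖)
          · rw [indicator_of_mem ht, indicator_of_mem (hmem t ht)]; exact le_refl _
          · rw [indicator_of_notMem ht]; exact bot_le
  · rw [indicator_of_notMem hy]
    exact bot_le

end Vale.Agent.P243sym
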