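import Vale.Agent.P243_sym.Defs

open MeasureTheory Submodule
open scoped ENNReal InnerProductSpace

namespace Vale.Agent.P243sym


theorem measurePreserving_line (u : E3) (hu : ‖u‖ = 1) :
    MeasurePreserving (fun p : ℝ × (ℝ ∙ u)ᗮ => (p.2 : E3) + p.1 • u)
      (volume.prod volume) volume := by
  have h1 : MeasurePreserving (LinearIsometryEquiv.toSpanUnitSingleton (𝕜 := ℝ) u hu)
      volume volume :=
    LinearIsometryEquiv.measurePreserving _
  have h2 : MeasurePreserving (Prod.map (LinearIsometryEquiv.toSpanUnitSingleton (𝕜 := ℝ) u hu)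
      (id : (ℝ ∙ u)ᗮ → (ℝ ∙ u)ᗮ)) (volume.prod volume) (volume.prod volume) :=
    h1.prod (MeasurePreserving.id _)
  have h3 : MeasurePreserving (@WithLp.toLp 2 ((ℝ ∙ u) × (ℝ ∙ u)ᗮ)) (volume.prod volume) volume :=
    WithLp.volume_preserving_toLp (ℝ ∙ u) (ℝ ∙ u)ᗮ
  have h4 : MeasurePreserving ((ℝ ∙ u).orthogonalDecomposition.symm) volume volume :=
    LinearIsometryEquiv.measurePreserving _
  have h5 := h4.comp (h3.comp h2)
  have h6 : (fun p : ℝ × (ℝ ∙ u)ᗮ => (p.2 : E3) + p.1 • u) =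
    ⇑(ℝ ∙ u).orthogonalDecomposition.symm ∘
      WithLp.toLp 2 ∘ Prod.map (⇑(LinearIsometryEquiv.toSpanUnitSingleton (𝕜 := ℝ) u hu)) id := by
    funext p
    simp [Submodule.orthogonalDecomposition_symm_apply, add_comm]
  rw [h6]
  exact h5

theorem lintegral_line (u : E3) (hu : ‖u‖ = 1) (f : E3 → ℝ≥0∞) (hf : Measurable f) :
    ∫⁻ x, f x = ∫⁻ y : (ℝ ∙ u)ᗮ, ∫⁻ t : ℝ, f ((y : E3) + t • u) := by
  have h := measurePreserving_line u hu
  rw [← h.lintegral_comp hf]
  rw [lintegral_prod_symm']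
  exact hf.comp h.measurable

end Vale.Agent.P243sym
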