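import Mathlib

open Set

namespace Vale.Agent.P243sym

theorem sum_pad {ι κ M : Type*} [Fintype ι] [Fintype κ] [DecidableEq κ] [AddCommMonoid M] (e : ι ↪ κ)
    (g : ι → M) [∀ i : κ, Decidable (∃ j, e j = i)] :
    ∑ i : κ, (if h : ∃ j, e j = i then g h.choose else 0) = ∑ j, g j := by
  rw [← Finset.sum_subset (Finset.subset_univ (Finset.univ.map e))]
  · rw [Finset.sum_map]
    refine Finset.sum_congr rfl fun j _ => ?_
    have h : ∃ j', e j' = e j := ⟨j, rfl⟩
    rw [dif_pos h]
    congr 1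
    exact e.injective h.choose_spec
  · intro i _ hi
    rw [dif_neg]
    rintro ⟨j, rfl⟩
    exact hi (Finset.mem_map_of_mem _ (Finset.mem_univ j))

theorem mem_convexHull_pad {V : Type*} [NormedAddCommGroup V] [NormedSpace ℝ V]
    [FiniteDimensional ℝ V] (s : Set V) (x : V) (hx : x ∈ convexHull ℝ s) :
    ∃ (w : Fin (Module.finrank ℝ V + 1) → ℝ) (z : Fin (Module.finrank ℝ V + 1) → V),
      (∀ i, 0 ≤ w i) ∧ ∑ i, w i = 1 ∧ (∀ i, z i ∈ s) ∧ ∑ i, w i • z i = x := by
  classical
  obtain ⟨ι, hι, z, w, hz, haff, hw, hw1, hsum⟩ := eq_pos_convex_span_of_mem_convexHull hx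
  have hcard : Fintype.card ι ≤ Module.finrank ℝ V + 1 := by
    have h1 := haff.card_le_finrank_succ
    have h2 : Module.finrank ℝ (vectorSpan ℝ (range z)) ≤ Module.finrank ℝ V :=
      Submodule.finrank_le _
    omega
  have hne : Nonempty ι := by
    by_contra hcon
    rw [not_nonempty_iff] at hcon
    simp at hw1
  obtain ⟨i₀⟩ := hne
  obtain ⟨e⟩ : Nonempty (ι ↪ Fin (Module.finrank ℝ V + 1)) :=
    Function.Embedding.nonempty_of_card_le (by simpa using hcard)
  refine ⟨fun i => if h : ∃ j, e j = i then w h.choose else 0,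
    fun i => if h : ∃ j, e j = i then z h.choose else z i₀, ?_, ?_, ?_, ?_⟩
  · intro i
    dsimp only
    split_ifs with h
    · exact (hw _).le
    · exact le_refl _
  · rw [sum_pad e w, hw1]
  · intro i
    dsimp only
    split_ifs with h
    · exact hz (mem_range_self _)
    · exact hz (mem_range_self _)
  · rw [← hsum, ← sum_pad e (fun j => w j • z j)]
    refine Finset.sum_congr rfl fun i _ => ?_
    by_cases h : ∃ j, e j = i
    · simp only [dif_pos h]
    · simp only [dif_neg h, zero_smul]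

theorem isCompact_convexHull {V : Type*} [NormedAddCommGroup V] [NormedSpace ℝ V]
    [FiniteDimensional ℝ V] (s : Set V) (hs : IsCompact s) : IsCompact (convexHull ℝ s) := by
  have : convexHull ℝ s = (fun p : (Fin (Module.finrank ℝ V + 1) → ℝ) ×
      (Fin (Module.finrank ℝ V + 1) → V) => ∑ i, p.1 i • p.2 i) ''
      (stdSimplex ℝ (Fin (Module.finrank ℝ V + 1)) ×ˢ (Set.pi univ fun _ => s)) := by
    ext x
    constructor
    · intro hx
      obtain ⟨w, z, hw, hw1, hz, hsum⟩ := mem_convexHull_pad s x hx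
      exact ⟨(w, z), ⟨⟨hw, hw1⟩, fun i _ => hz i⟩, hsum⟩
    · rintro ⟨⟨w, z⟩, ⟨⟨hw, hw1⟩, hz⟩, rfl⟩
      exact (convex_convexHull ℝ s).sum_mem (fun i _ => hw i) hw1
        (fun i _ => subset_convexHull ℝ s (hz i (mem_univ i)))
  rw [this]
  have h1 : IsCompact (stdSimplex ℝ (Fin (Module.finrank ℝ V + 1))) := isCompact_stdSimplex ℝ _
  have h2 : IsCompact (Set.pi univ fun _ : Fin (Module.finrank ℝ V + 1) => s) :=
    isCompact_univ_pi fun _ => hs
  exact (h1.prod h2).image (by fun_prop)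

end Vale.Agent.P243sym
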