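import Vale.Agent.P243_sym.Variation
import Vale.Agent.P243_sym.Hull

open MeasureTheory Set Filter Topology
open scoped ENNReal InnerProductSpace

namespace Vale.Agent.P243sym

/-- The rank one matrix `n ⊗ n`. -/
noncomputable def outer (n : E3) : Fin 3 → Fin 3 → ℝ := fun i j => n i * n j

/-- The bilinear form of a matrix. -/
noncomputable def bil (P : Fin 3 → Fin 3 → ℝ) (x y : E3) : ℝ := ∑ i, ∑ j, P i j * x i * y j

theorem inner_eq_sum (x y : E3) : inner ℝ x y = ∑ i, x i * y i := by
  rw [PiLp.inner_apply]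
  refine Finset.sum_congr rfl fun i _ => ?_
  simp [mul_comm]

theorem bil_outer (n x y : E3) : bil (outer n) x y = inner ℝ n x * inner ℝ n y := by
  rw [inner_eq_sum, inner_eq_sum, bil, Finset.sum_mul_sum]
  refine Finset.sum_congr rfl fun i _ => Finset.sum_congr rfl fun j _ => ?_
  simp only [outer]; ring

theorem continuous_outer : Continuous outer := by
  unfold outer
  fun_prop

theorem bil_add (P Q : Fin 3 → Fin 3 → ℝ) (x y : E3) :
    bil (P + Q) x y = bil P x y + bil Q x y := by
  simp only [bil, Pi.add_apply, add_mul, Finset.sum_add_distrib]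

theorem bil_smul (c : ℝ) (P : Fin 3 → Fin 3 → ℝ) (x y : E3) :
    bil (c • P) x y = c * bil P x y := by
  simp only [bil, Pi.smul_apply, smul_eq_mul, Finset.mul_sum]
  refine Finset.sum_congr rfl fun i _ => Finset.sum_congr rfl fun j _ => ?_
  ring

theorem bil_sum {ι : Type*} (s : Finset ι) (w : ι → ℝ) (z : ι → Fin 3 → Fin 3 → ℝ) (x y : E3) :
    bil (∑ i ∈ s, w i • z i) x y = ∑ i ∈ s, w i * bil (z i) x y := by
  classical
  induction s using Finset.induction_on with
  | empty => simp [bil]
  | insert a s ha ih => rw [Finset.sum_insert ha, Finset.sum_insert ha, bil_add, bil_smul, ih]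

theorem isClosed_contact (K : Set E3) (A₀ : E3 →L[ℝ] E3) : IsClosed (Contact K A₀) := by
  have : Contact K A₀ = {n | ‖n‖ = 1} ∩ ⋂ x : E3, ⋂ (_ : A₀ x ∈ K), {n | inner ℝ n x ≤ 1} := by
    ext n; simp [Contact]
  rw [this]
  refine (isClosed_eq continuous_norm continuous_const).inter ?_
  refine isClosed_iInter fun x => isClosed_iInter fun _ => ?_
  exact isClosed_le (by fun_prop) continuous_const

theorem isCompact_contact (K : Set E3) (A₀ : E3 →L[ℝ] E3) : IsCompact (Contact K A₀) := by
  refine (isCompact_sphere (0 : E3) 1).of_isClosed_subset (isClosed_contact K A₀) ?_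
  intro n hn
  simpa using hn.1

/-- Unit vectors at which the norm of `A₀` is attained. -/
def MaxDir (A₀ : E3 →L[ℝ] E3) : Set E3 := {η | ‖η‖ = 1 ∧ ‖A₀ η‖ = ‖A₀‖}

theorem isCompact_maxDir (A₀ : E3 →L[ℝ] E3) : IsCompact (MaxDir A₀) := by
  refine (isCompact_sphere (0 : E3) 1).of_isClosed_subset ?_ ?_
  · exact (isClosed_eq continuous_norm continuous_const).inter
      (isClosed_eq (by fun_prop) continuous_const)
  · intro n hn
    simpa using hn.1

/-- determinant expansion for the perturbation given by a matrix -/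
theorem det_perturb (M : Matrix (Fin 3) (Fin 3) ℝ) :
    ∃ p : ℝ → ℝ, Continuous p ∧ ∀ t : ℝ,
      (ContinuousLinearMap.id ℝ E3 + t • Matrix.toEuclideanCLM (𝕜 := ℝ) M).det
        = 1 + M.trace * t + p t * t ^ 2 := by
  refine ⟨fun t => ((1 + (Polynomial.X : Polynomial ℝ) • M.map Polynomial.C).det).divX.divX.eval t,
    Polynomial.continuous _, fun t => ?_⟩
  rw [← Matrix.det_one_add_smul]
  have h1 : ContinuousLinearMap.id ℝ E3 + t • Matrix.toEuclideanCLM (𝕜 := ℝ) M
      = Matrix.toEuclideanCLM (𝕜 := ℝ) (1 + t • M) := by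
    rw [map_add, map_smul, map_one]; rfl
  rw [h1, ContinuousLinearMap.det, Matrix.coe_toEuclideanCLM_eq_toEuclideanLin,
    Matrix.toEuclideanLin_eq_toLin_orthonormal]
  exact LinearMap.det_toLin _ _

/-- **KKT conditions.** -/
theorem kkt (K : Set E3) (hK : IsCompact K) (hconv : Convex ℝ K)
    (A₀ : E3 →L[ℝ] E3) (hA₀ : Feas K A₀) (hdet₀ : A₀.det ≠ 0)
    (hmax : ∀ A : E3 →L[ℝ] E3, Feas K A → |A.det| * ‖A₀‖ ≤ |A₀.det| * ‖A‖) :
    ∃ P ∈ convexHull ℝ (outer '' Contact K A₀), ∃ Y ∈ convexHull ℝ (outer '' MaxDir A₀),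
      ∀ x y : E3, 2 * bil P x y + bil Y x y = inner ℝ x y := by
  classical
  by_contra hcon
  push Not at hcon
  set I : Fin 3 → Fin 3 → ℝ := fun i j => if i = j then 1 else 0 with hI
  have hIbil : ∀ x y : E3, bil I x y = inner ℝ x y := by
    intro x y
    rw [inner_eq_sum, bil]
    refine Finset.sum_congr rfl fun i _ => ?_
    simp [hI]
  set S := convexHull ℝ (outer '' Contact K A₀) with hS
  set T' := convexHull ℝ (outer '' MaxDir A₀) with hT'
  have hSc : IsCompact S := isCompact_convexHull _ ((isCompact_contact K A₀).image continuous_outer)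
  have hTc' : IsCompact T' := isCompact_convexHull _ ((isCompact_maxDir A₀).image continuous_outer)
  set g : (Fin 3 → Fin 3 → ℝ) → (Fin 3 → Fin 3 → ℝ) := fun Y => (1 / 2 : ℝ) • (I - Y) with hg
  have hgc : Continuous g := by simp only [hg]; fun_prop
  set T := g '' T' with hT
  have hTc : IsCompact T := hTc'.image hgc
  have hTconv : Convex ℝ T := by
    rintro _ ⟨Y, hY, rfl⟩ _ ⟨Y', hY', rfl⟩ a b ha hb hab
    refine ⟨a • Y + b • Y', (convex_convexHull ℝ _) hY hY' ha hb hab, ?_⟩
    simp only [hg]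
    have : I = (a + b) • I := by rw [hab, one_smul]
    conv_lhs => rw [this]
    module
  have hdisj : Disjoint S T := by
    rw [Set.disjoint_left]
    rintro P hP ⟨Y, hY, rfl⟩
    obtain ⟨x, y, hxy⟩ := hcon _ hP Y hY
    apply hxy
    have e : g Y = (1 / 2 : ℝ) • I + (-(1 / 2) : ℝ) • Y := by
      simp only [hg]; module
    rw [e, bil_add, bil_smul, bil_smul, hIbil]
    ring
  obtain ⟨f, u, v, hfS, huv, hfT⟩ := geometric_hahn_banach_compact_closed
    (convex_convexHull ℝ _) hSc hTconv hTc.isClosed hdisj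
  -- coefficients of `f`
  set E : Fin 3 → Fin 3 → (Fin 3 → Fin 3 → ℝ) := fun i j => Pi.single i (Pi.single j 1) with hE
  have hfsum : ∀ X : Fin 3 → Fin 3 → ℝ, f X = ∑ i, ∑ j, X i j * f (E i j) := by
    intro X
    have h1 : X = ∑ i, ∑ j, X i j • E i j := by
      funext a b
      simp only [Finset.sum_apply, Pi.smul_apply, hE, smul_eq_mul]
      rw [Finset.sum_eq_single a]
      · rw [Finset.sum_eq_single b]
        · simp
        · intro c _ hc
          simp [Pi.single_eq_of_ne hc.symm]
        · simp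
      · intro c _ hc
        refine Finset.sum_eq_zero fun d _ => ?_
        simp [Pi.single_eq_of_ne hc.symm]
      · simp
    conv_lhs => rw [h1]
    rw [map_sum]
    refine Finset.sum_congr rfl fun i _ => ?_
    rw [map_sum]
    refine Finset.sum_congr rfl fun j _ => ?_
    rw [map_smul, smul_eq_mul]
  set M : Matrix (Fin 3) (Fin 3) ℝ :=
    Matrix.of fun i j => (f (E i j) + f (E j i)) / 2 - u * (if i = j then 1 else 0) with hM
  set H : E3 →L[ℝ] E3 := Matrix.toEuclideanCLM (𝕜 := ℝ) M with hH
  have hinner : ∀ x y : E3, inner ℝ x (H y) = ∑ i, ∑ j, M i j * x i * y j := by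
    intro x y
    rw [hH, Matrix.inner_toEuclideanCLM]
    simp only [dotProduct, Matrix.mulVec, Finset.mul_sum]
    refine Finset.sum_congr rfl fun i _ => Finset.sum_congr rfl fun j _ => ?_
    ring
  have hMsymm : ∀ i j, M i j = M j i := by
    intro i j
    simp only [hM, Matrix.of_apply]
    rw [add_comm (f (E i j))]
    by_cases h : i = j
    · subst h; rfl
    · rw [if_neg h, if_neg (Ne.symm h)]
  have hsym : ∀ x y, inner ℝ (H x) y = inner ℝ x (H y) := by
    intro x y
    rw [real_inner_comm, hinner, hinner, Finset.sum_comm]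
    refine Finset.sum_congr rfl fun i _ => Finset.sum_congr rfl fun j _ => ?_
    rw [hMsymm]; ring
  have hquad : ∀ n : E3, ‖n‖ = 1 → inner ℝ n (H n) = f (outer n) - u := by
    intro n hn
    have h1 : inner ℝ n n = (1 : ℝ) := by rw [real_inner_self_eq_norm_sq, hn]; norm_num
    rw [inner_eq_sum] at h1
    rw [hinner, hfsum]
    simp only [Fin.sum_univ_three] at h1 ⊢
    simp only [hM, Matrix.of_apply, outer]
    simp only [Fin.isValue, ↓reduceIte, Fin.reduceEq, zero_ne_one, one_ne_zero]
    linear_combination (-u) * h1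
  obtain ⟨p, hp, hdet⟩ := det_perturb M
  have hneg : ∀ n ∈ Contact K A₀, inner ℝ n (H n) < 0 := by
    intro n hn
    rw [hquad n hn.1]
    have := hfS _ (subset_convexHull ℝ _ (mem_image_of_mem outer hn))
    linarith
  obtain ⟨η, hη, hη2, hη3⟩ := no_good_perturbation K hK hconv A₀ hA₀ hdet₀ hmax H hsym M.trace p hp
    hdet hneg
  rw [hquad η hη] at hη3
  have h2 : v < f (g (outer η)) :=
    hfT _ (mem_image_of_mem g (subset_convexHull ℝ _ (mem_image_of_mem outer ⟨hη, hη2⟩)))
  have h3 : f (g (outer η)) = (1 / 2) * (f I - f (outer η)) := by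
    simp only [hg]
    rw [map_smul, map_sub, smul_eq_mul]
  have h4 : M.trace = f I - 3 * u := by
    rw [hfsum I]
    simp only [Matrix.trace, Matrix.diag, Fin.sum_univ_three, hM, Matrix.of_apply, hI]
    simp only [Fin.isValue, ↓reduceIte, Fin.reduceEq, zero_ne_one, one_ne_zero]
    ring
  rw [h3] at h2
  rw [h4] at hη3
  linarith

end Vale.Agent.P243sym
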