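import Vale.Agent.P243_sym.Reduce

open MeasureTheory Set Submodule
open scoped ENNReal InnerProductSpace

namespace Vale.Agent.P243sym

theorem shadowArea_translate (u z : E3) (K : Set E3) :
    shadowArea u ((fun x => x + z) '' K) = shadowArea u K := by
  unfold shadowArea
  have h : (ℝ ∙ u)ᗮ.orthogonalProjectionOnto '' ((fun x => x + z) '' K)
      = (fun y => y + (ℝ ∙ u)ᗮ.orthogonalProjectionOnto z) ''
        ((ℝ ∙ u)ᗮ.orthogonalProjectionOnto '' K) := by
    rw [image_image, image_image]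
    refine image_congr fun x _ => ?_
    rw [map_add]
  rw [h, image_add_right, measure_preimage_add_right]

theorem minShadow_translate (z : E3) (K : Set E3) :
    minShadow ((fun x => x + z) '' K) = minShadow K := by
  unfold minShadow
  simp only [shadowArea_translate]

theorem centre_mem_interior (K : Set E3) (hconv : Convex ℝ K) (hint : (interior K).Nonempty)
    (z : E3) (hsym : ∀ x ∈ K, (2 : ℝ) • z - x ∈ K) : z ∈ interior K := by
  obtain ⟨p, hp⟩ := hint
  have h1 : (2 : ℝ) • z - p ∈ interior K := by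
    have hopen : IsOpen ((fun x : E3 => (2 : ℝ) • z - x) ⁻¹' (interior K)) :=
      isOpen_interior.preimage (by fun_prop)
    have hsub : (fun x : E3 => (2 : ℝ) • z - x) ⁻¹' (interior K) ⊆ K := by
      intro x hx
      have := hsym _ (interior_subset hx)
      simpa using this
    have := interior_maximal hsub hopen
    apply this
    simpa using hp
  have h2 := hconv.interior hp h1 (a := 1 / 2) (b := 1 / 2) (by norm_num) (by norm_num)
    (by norm_num)
  have h3 : (1 / 2 : ℝ) • p + (1 / 2 : ℝ) • ((2 : ℝ) • z - p) = z := by module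
  rwa [h3] at h2

/-- **Bang's half-area inequality for centrally symmetric bodies.** -/
theorem symmetric_half_area (K : Set E3) (hK : IsCompact K) (hconv : Convex ℝ K)
    (hint : (interior K).Nonempty) (z : E3) (hsym : ∀ x ∈ K, (2 : ℝ) • z - x ∈ K)
    {m : ℕ} (u : Fin m → E3) (hu : ∀ i, ‖u i‖ = 1)
    (B : ∀ i, Set (ℝ ∙ u i)ᗮ) (hB : ∀ i, MeasurableSet (B i))
    (hcov : K ⊆ ⋃ i, cylinder (u i) (B i)) :
    ENNReal.ofReal 0.503 * minShadow K ≤ ∑ i, volume (B i) := by
  have hz := centre_mem_interior K hconv hint z hsym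
  obtain ⟨r, hr, hrK⟩ := Metric.nhds_basis_closedBall.mem_iff.1 (mem_interior_iff_mem_nhds.1 hz)
  set K' : Set E3 := (fun x => x + -z) '' K with hK'
  have hmemK' : ∀ x, x ∈ K' ↔ z + x ∈ K := by
    intro x
    constructor
    · rintro ⟨y, hy, rfl⟩
      simpa using hy
    · intro hx
      exact ⟨z + x, hx, by simp⟩
  have hK'c : IsCompact K' := hK.image (by fun_prop)
  have hK'conv : Convex ℝ K' := by
    intro x hx y hy a b ha hb hab
    rw [hmemK'] at hx hy ⊢
    have := hconv hx hy ha hb hab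
    have e : a • (z + x) + b • (z + y) = z + (a • x + b • y) := by
      have : z = (a + b) • z := by rw [hab, one_smul]
      conv_rhs => rw [this]
      module
    rwa [e] at this
  have hK'sym : ∀ x ∈ K', -x ∈ K' := by
    intro x hx
    rw [hmemK'] at hx ⊢
    have := hsym _ hx
    have e : (2 : ℝ) • z - (z + x) = z + -x := by module
    rwa [e] at this
  have hK'r : Metric.closedBall 0 r ⊆ K' := by
    intro x hx
    rw [hmemK']
    apply hrK
    simpa using hx
  obtain ⟨A, hA, hmain⟩ := exists_good_ellipsoid K' hK'c hK'conv hK'sym r hr hK'r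
  rw [hK', minShadow_translate] at hmain
  have hcover := ellipsoid_cover A z u hu B hB (by
    intro x hx
    apply hcov
    rw [← hmemK']
    exact hA x hx.le)
  have hApos : 0 < ‖(A : E3 →L[ℝ] E3)‖ := by
    rw [norm_pos_iff]
    intro h
    obtain ⟨b, hb⟩ := exists_basis_one (EuclideanSpace.single 0 1) (by simp)
    have h1 : A (b 0) = 0 := by
      have := congrArg (fun T : E3 →L[ℝ] E3 => T (b 0)) h
      simpa using this
    have h2 : b 0 = 0 := by simpa using h1
    exact b.orthonormal.ne_zero 0 h2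
  have hA0 : ENNReal.ofReal ‖(A : E3 →L[ℝ] E3)‖ ≠ 0 := (ENNReal.ofReal_pos.2 hApos).ne'
  have h6 : ENNReal.ofReal 6.24 ≠ 0 := by simp; norm_num
  have h1 : ENNReal.ofReal ‖(A : E3 →L[ℝ] E3)‖ * (ENNReal.ofReal Real.pi * minShadow K)
      ≤ ENNReal.ofReal ‖(A : E3 →L[ℝ] E3)‖ * (ENNReal.ofReal 6.24 * ∑ i, volume (B i)) := by
    calc ENNReal.ofReal ‖(A : E3 →L[ℝ] E3)‖ * (ENNReal.ofReal Real.pi * minShadow K)
        = ENNReal.ofReal Real.pi * (ENNReal.ofReal ‖(A : E3 →L[ℝ] E3)‖ * minShadow K) := by ring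
      _ ≤ ENNReal.ofReal Real.pi * (ENNReal.ofReal |LinearMap.det (A : E3 →ₗ[ℝ] E3)|
            * ENNReal.ofReal 6.24) := by gcongr
      _ = ENNReal.ofReal 6.24 * ENNReal.ofReal (Real.pi * |LinearMap.det (A : E3 →ₗ[ℝ] E3)|) := by
          rw [ENNReal.ofReal_mul Real.pi_pos.le]; ring
      _ ≤ ENNReal.ofReal 6.24 * (ENNReal.ofReal ‖(A : E3 →L[ℝ] E3)‖ * ∑ i, volume (B i)) := by
          gcongr
      _ = _ := by ring
  rw [ENNReal.mul_le_mul_iff_right hA0 ENNReal.ofReal_ne_top] at h1
  have h2 : ENNReal.ofReal 6.24 * (ENNReal.ofReal 0.503 * minShadow K)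
      ≤ ENNReal.ofReal 6.24 * ∑ i, volume (B i) := by
    refine le_trans ?_ h1
    rw [← mul_assoc, ← ENNReal.ofReal_mul (by norm_num)]
    gcongr
    have := Real.pi_gt_d6
    norm_num at this ⊢
    linarith
  rwa [ENNReal.mul_le_mul_iff_right h6 ENNReal.ofReal_ne_top] at h2

end Vale.Agent.P243sym
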