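import Vale.Agent.P243_sym.Frame

open MeasureTheory Set
open scoped ENNReal InnerProductSpace

namespace Vale.Agent.P243sym

/-- `A` maps the closed unit ball into `K`. -/
def Feas (K : Set E3) (A : E3 →L[ℝ] E3) : Prop := ∀ x : E3, ‖x‖ ≤ 1 → A x ∈ K

theorem abs_det_le (A : E3 →L[ℝ] E3) : |A.det| ≤ ‖A‖ ^ 3 := by
  have h1 : A '' (Metric.closedBall 0 1) ⊆ Metric.closedBall 0 ‖A‖ := by
    rintro _ ⟨x, hx, rfl⟩
    rw [mem_closedBall_zero_iff] at hx ⊢
    exact (A.le_opNorm x).trans (mul_le_of_le_one_right (norm_nonneg _) hx)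
  have h2 : volume (A '' (Metric.closedBall 0 1))
      = ENNReal.ofReal |A.det| * volume (Metric.closedBall (0 : E3) 1) :=
    Measure.addHaar_image_linearMap volume (A : E3 →ₗ[ℝ] E3) _
  have h3 := measure_mono (μ := (volume : Measure E3)) h1
  rw [h2] at h3
  have h4 : volume (Metric.closedBall (0 : E3) ‖A‖)
      = ENNReal.ofReal (‖A‖ ^ 3) * volume (Metric.closedBall (0 : E3) 1) := by
    have := Measure.addHaar_closedBall_mul (volume : Measure E3) (0 : E3) (norm_nonneg A)
      (s := 1) (by norm_num)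
    simpa using this
  rw [h4] at h3
  have h5 : volume (Metric.closedBall (0 : E3) 1) ≠ 0 :=
    (Metric.measure_closedBall_pos volume (0 : E3) one_pos).ne'
  have h6 : volume (Metric.closedBall (0 : E3) 1) ≠ ⊤ := measure_closedBall_lt_top.ne
  rw [ENNReal.mul_le_mul_iff_left h5 h6] at h3
  exact (ENNReal.ofReal_le_ofReal_iff (by positivity)).1 h3

theorem exists_maximizer (K : Set E3) (hK : IsCompact K) (r : ℝ) (hr : 0 < r)
    (hrK : Metric.closedBall 0 r ⊆ K) :
    ∃ A₀ : E3 →L[ℝ] E3, Feas K A₀ ∧ A₀.det ≠ 0 ∧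
      ∀ A : E3 →L[ℝ] E3, Feas K A → |A.det| * ‖A₀‖ ≤ |A₀.det| * ‖A‖ := by
  obtain ⟨R, hR⟩ := hK.isBounded.subset_closedBall 0
  set G : Set (E3 →L[ℝ] E3) := {A | Feas K A ∧ r ≤ ‖A‖} with hG
  have hnorm : ∀ A : E3 →L[ℝ] E3, Feas K A → ‖A‖ ≤ R := by
    intro A hA
    have hR0 : 0 ≤ R := by
      have := hR (hA 0 (by simp))
      rw [mem_closedBall_zero_iff] at this
      exact (norm_nonneg _).trans this
    refine A.opNorm_le_of_unit_norm hR0 fun x hx => ?_
    have := hR (hA x hx.le)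
    rwa [mem_closedBall_zero_iff] at this
  have hGclosed : IsClosed G := by
    have h1 : IsClosed {A : E3 →L[ℝ] E3 | Feas K A} := by
      have : {A : E3 →L[ℝ] E3 | Feas K A} = ⋂ x : E3, ⋂ (_ : ‖x‖ ≤ 1), {A | A x ∈ K} := by
        ext A; simp [Feas]
      rw [this]
      refine isClosed_iInter fun x => isClosed_iInter fun _ => ?_
      exact hK.isClosed.preimage (ContinuousLinearMap.apply ℝ E3 x).continuous
    exact h1.inter (isClosed_le continuous_const continuous_norm)
  have hGb : Bornology.IsBounded G := by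
    refine Metric.isBounded_closedBall.subset (s := G) (t := Metric.closedBall 0 R) ?_
    intro A hA
    rw [mem_closedBall_zero_iff]
    exact hnorm A hA.1
  haveI : ProperSpace (E3 →L[ℝ] E3) := FiniteDimensional.proper ℝ _
  have hGc : IsCompact G := Metric.isCompact_of_isClosed_isBounded hGclosed hGb
  set I : E3 →L[ℝ] E3 := r • ContinuousLinearMap.id ℝ E3 with hI
  have hInorm : ‖I‖ = r := by
    rw [hI, norm_smul, ContinuousLinearMap.norm_id, Real.norm_of_nonneg hr.le, mul_one]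
  have hIdet : I.det = r ^ 3 := by
    rw [hI]
    simp [ContinuousLinearMap.det, LinearMap.det_smul]
  have hIG : I ∈ G := by
    refine ⟨fun x hx => hrK ?_, hInorm.ge⟩
    rw [mem_closedBall_zero_iff, hI]
    simp only [smul_apply, ContinuousLinearMap.id_apply, norm_smul,
      Real.norm_of_nonneg hr.le]
    nlinarith [norm_nonneg x]
  have hcont : ContinuousOn (fun A : E3 →L[ℝ] E3 => |A.det| / ‖A‖) G := by
    apply ContinuousOn.div
    · exact (ContinuousLinearMap.continuous_det.abs).continuousOn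
    · exact continuous_norm.continuousOn
    · intro A hA
      exact (lt_of_lt_of_le hr hA.2).ne'
  obtain ⟨A₀, hA₀, hmax⟩ := hGc.exists_isMaxOn ⟨I, hIG⟩ hcont
  have hA₀pos : 0 < ‖A₀‖ := lt_of_lt_of_le hr hA₀.2
  have hg : r ^ 2 ≤ |A₀.det| / ‖A₀‖ := by
    have := hmax hIG
    simp only [mem_ofPred_eq] at this
    rw [hInorm, hIdet, abs_of_pos (by positivity)] at this
    calc r ^ 2 = r ^ 3 / r := by field_simp
      _ ≤ _ := this
  refine ⟨A₀, hA₀.1, ?_, ?_⟩
  · intro h
    rw [h] at hg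
    simp at hg
    nlinarith [pow_pos hr 2]
  · intro A hA
    by_cases hAr : r ≤ ‖A‖
    · have := hmax (show A ∈ G from ⟨hA, hAr⟩)
      simp only [mem_ofPred_eq] at this
      rw [div_le_div_iff₀ (lt_of_lt_of_le hr hAr) hA₀pos] at this
      exact this
    · push Not at hAr
      rw [le_div_iff₀ hA₀pos] at hg
      calc |A.det| * ‖A₀‖ ≤ ‖A‖ ^ 3 * ‖A₀‖ := by gcongr; exact abs_det_le A
        _ = (‖A‖ ^ 2 * ‖A₀‖) * ‖A‖ := by ring
        _ ≤ (r ^ 2 * ‖A₀‖) * ‖A‖ := by gcongr
        _ ≤ |A₀.det| * ‖A‖ := by gcongr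

end Vale.Agent.P243sym
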