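import Vale.Agent.P243_sym.Ellipsoid

open MeasureTheory Set Submodule
open scoped ENNReal InnerProductSpace

namespace Vale.Agent.P243sym

theorem proj_line (u : E3) (y : (ℝ ∙ u)ᗮ) (t : ℝ) :
    (ℝ ∙ u)ᗮ.orthogonalProjectionOnto ((y : E3) + t • u) = y := by
  rw [map_add, map_smul, Submodule.orthogonalProjectionOnto_mem_subspace_eq_self,
    Submodule.orthogonalProjectionOnto_orthogonalComplement_singleton_eq_zero]
  simp

theorem exists_line (u : E3) (x : E3) :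
    ∃ t : ℝ, x = ((ℝ ∙ u)ᗮ.orthogonalProjectionOnto x : E3) + t • u := by
  have h := (ℝ ∙ u).starProjection_add_starProjection_orthogonal x
  have h2 : (ℝ ∙ u).starProjection x ∈ (ℝ ∙ u) := Submodule.starProjection_apply_mem _ _
  obtain ⟨t, ht⟩ := Submodule.mem_span_singleton.1 h2
  refine ⟨t, ?_⟩
  rw [ht, add_comm]
  exact h.symm

theorem cylinder_eq (u : E3) (B : Set (ℝ ∙ u)ᗮ) :
    cylinder u B = (ℝ ∙ u)ᗮ.orthogonalProjectionOnto ⁻¹' B := by
  ext x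
  constructor
  · rintro ⟨b, hb, t, rfl⟩
    rw [mem_preimage, proj_line]; exact hb
  · intro hx
    obtain ⟨t, ht⟩ := exists_line u x
    exact ⟨_, hx, t, ht⟩

/-- change of variables for the ellipsoid `z + A (ball)`. -/
theorem lintegral_ellipsoid (A : E3 ≃L[ℝ] E3) (z : E3) :
    ∫⁻ x : E3, ENNReal.ofReal ((√(1 - ‖A.symm (x - z)‖ ^ 2))⁻¹)
      = ENNReal.ofReal (Real.pi ^ 2 * |LinearMap.det (A : E3 →ₗ[ℝ] E3)|) := by
  have h1 : ∫⁻ x : E3, ENNReal.ofReal ((√(1 - ‖A.symm (x - z)‖ ^ 2))⁻¹)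
      = ∫⁻ x : E3, ENNReal.ofReal ((√(1 - ‖A.symm x‖ ^ 2))⁻¹) :=
    lintegral_sub_right_eq_self (fun x : E3 => ENNReal.ofReal ((√(1 - ‖A.symm x‖ ^ 2))⁻¹)) z
  rw [h1]
  have hdet : LinearMap.det ((A.symm : E3 ≃L[ℝ] E3) : E3 →ₗ[ℝ] E3) ≠ 0 := by
    have := (A.symm : E3 ≃ₗ[ℝ] E3).isUnit_det'
    exact this.ne_zero
  have hmap := Measure.map_linearMap_addHaar_eq_smul_addHaar (volume : Measure E3) hdet
  have hdd : (LinearMap.det ((A.symm : E3 ≃L[ℝ] E3) : E3 →ₗ[ℝ] E3))⁻¹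
      = LinearMap.det (A : E3 →ₗ[ℝ] E3) := by
    have h := (A : E3 ≃ₗ[ℝ] E3).det_mul_det_symm
    exact inv_eq_of_mul_eq_one_left h
  rw [hdd] at hmap
  have h2 : ∫⁻ x : E3, ENNReal.ofReal ((√(1 - ‖A.symm x‖ ^ 2))⁻¹)
      = ∫⁻ x : E3, ENNReal.ofReal ((√(1 - ‖x‖ ^ 2))⁻¹)
        ∂(Measure.map ((A.symm : E3 ≃L[ℝ] E3) : E3 →ₗ[ℝ] E3) volume) := by
    rw [lintegral_map (by fun_prop) (by fun_prop)]
    rfl
  rw [h2, hmap, lintegral_smul_measure, lintegral_ball, smul_eq_mul,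
    ← ENNReal.ofReal_mul (abs_nonneg _), mul_comm]

/-- The mass that a cylinder captures. -/
theorem lintegral_cylinder_le (A : E3 ≃L[ℝ] E3) (z u : E3) (hu : ‖u‖ = 1) (B : Set (ℝ ∙ u)ᗮ)
    (hB : MeasurableSet B) :
    ∫⁻ x in cylinder u B, ENNReal.ofReal ((√(1 - ‖A.symm (x - z)‖ ^ 2))⁻¹)
      ≤ ENNReal.ofReal (Real.pi * ‖(A : E3 →L[ℝ] E3)‖) * volume B := by
  have hmeas : MeasurableSet (cylinder u B) := by
    rw [cylinder_eq]
    exact (ℝ ∙ u)ᗮ.orthogonalProjectionOnto.continuous.measurable hB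
  rw [← lintegral_indicator hmeas, lintegral_line u hu _ (by
    apply Measurable.indicator _ hmeas; fun_prop)]
  have hpt : ∀ y : (ℝ ∙ u)ᗮ, ∫⁻ t : ℝ, (cylinder u B).indicator
      (fun x => ENNReal.ofReal ((√(1 - ‖A.symm (x - z)‖ ^ 2))⁻¹)) ((y : E3) + t • u)
      ≤ B.indicator (fun _ => ENNReal.ofReal (Real.pi * ‖(A : E3 →L[ℝ] E3)‖)) y := by
    intro y
    by_cases hy : y ∈ B
    · rw [indicator_of_mem hy]
      have h1 : ∀ t : ℝ, (cylinder u B).indicator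
          (fun x => ENNReal.ofReal ((√(1 - ‖A.symm (x - z)‖ ^ 2))⁻¹)) ((y : E3) + t • u)
          = ENNReal.ofReal ((√(1 - ‖A.symm ((y : E3) - z) + t • A.symm u‖ ^ 2))⁻¹) := by
        intro t
        rw [indicator_of_mem (show (y : E3) + t • u ∈ cylinder u B from ⟨y, hy, t, rfl⟩)]
        rw [← map_smul, ← map_add, sub_add_eq_add_sub]
      simp_rw [h1]
      have hu0 : u ≠ 0 := by intro h; simp [h] at hu
      have hv : A.symm u ≠ 0 := by simpa using hu0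
      refine (lintegral_chord_le _ _ hv).trans ?_
      apply ENNReal.ofReal_le_ofReal
      rw [div_le_iff₀ (norm_pos_iff.2 hv), mul_assoc]
      have h3 : 1 ≤ ‖(A : E3 →L[ℝ] E3)‖ * ‖A.symm u‖ := by
        have := (A : E3 →L[ℝ] E3).le_opNorm (A.symm u)
        simpa [hu] using this
      nlinarith [Real.pi_pos]
    · rw [indicator_of_notMem hy]
      have h1 : ∀ t : ℝ, (cylinder u B).indicator
          (fun x => ENNReal.ofReal ((√(1 - ‖A.symm (x - z)‖ ^ 2))⁻¹)) ((y : E3) + t • u) = 0 := by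
        intro t
        apply indicator_of_notMem
        rw [cylinder_eq, mem_preimage, proj_line]
        exact hy
      simp_rw [h1]
      simp
  refine (lintegral_mono hpt).trans ?_
  rw [lintegral_indicator hB, lintegral_const, Measure.restrict_apply MeasurableSet.univ, univ_inter]

/-- A covered ellipsoid `z + A (ball)` forces the bases to have total area at least
`π |det A| / ‖A‖`. -/
theorem ellipsoid_cover (A : E3 ≃L[ℝ] E3) (z : E3) {m : ℕ} (u : Fin m → E3)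
    (hu : ∀ i, ‖u i‖ = 1) (B : ∀ i, Set (ℝ ∙ u i)ᗮ) (hB : ∀ i, MeasurableSet (B i))
    (hcov : ∀ x, ‖x‖ < 1 → z + A x ∈ ⋃ i, cylinder (u i) (B i)) :
    ENNReal.ofReal (Real.pi * |LinearMap.det (A : E3 →ₗ[ℝ] E3)|)
      ≤ ENNReal.ofReal ‖(A : E3 →L[ℝ] E3)‖ * ∑ i, volume (B i) := by
  have hpi : ENNReal.ofReal Real.pi ≠ 0 := by simp [Real.pi_pos]
  have hsub : Function.support (fun x : E3 => ENNReal.ofReal ((√(1 - ‖A.symm (x - z)‖ ^ 2))⁻¹))
      ⊆ ⋃ i, cylinder (u i) (B i) := by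
    intro x hx
    simp only [Function.mem_support, ne_eq, ENNReal.ofReal_eq_zero, not_le, inv_pos,
      Real.sqrt_pos] at hx
    have h1 : ‖A.symm (x - z)‖ < 1 := by nlinarith [norm_nonneg (A.symm (x - z))]
    have := hcov _ h1
    simpa using this
  have h1 : ENNReal.ofReal (Real.pi ^ 2 * |LinearMap.det (A : E3 →ₗ[ℝ] E3)|)
      ≤ ∑ i, ENNReal.ofReal (Real.pi * ‖(A : E3 →L[ℝ] E3)‖) * volume (B i) := by
    rw [← lintegral_ellipsoid A z, ← setLIntegral_eq_of_support_subset hsub]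
    refine (lintegral_iUnion_le _ _).trans ?_
    rw [tsum_fintype]
    exact Finset.sum_le_sum fun i _ => lintegral_cylinder_le A z (u i) (hu i) (B i) (hB i)
  rw [← Finset.mul_sum, ENNReal.ofReal_mul Real.pi_pos.le, mul_assoc, sq, mul_assoc,
    ENNReal.ofReal_mul Real.pi_pos.le] at h1
  exact (ENNReal.mul_le_mul_iff_right hpi ENNReal.ofReal_ne_top).1 h1

end Vale.Agent.P243sym
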