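import Vale.Agent.P243_sym.Cases

open MeasureTheory Set Submodule
open scoped ENNReal InnerProductSpace

namespace Vale.Agent.P243sym

theorem eq_zero_of_quad (a b : ℝ) (h : ∀ s : ℝ, 0 ≤ 2 * s * a + s ^ 2 * b) : a = 0 := by
  by_contra hne
  have hb1 : 0 < |b| + 1 := by positivity
  have := h (-a / (|b| + 1))
  have e : 2 * (-a / (|b| + 1)) * a + (-a / (|b| + 1)) ^ 2 * b
      = a ^ 2 / (|b| + 1) ^ 2 * (b - 2 * (|b| + 1)) := by
    field_simp
    ring
  rw [e] at this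
  have h3 : 0 < a ^ 2 / (|b| + 1) ^ 2 := by positivity
  have h4 : b - 2 * (|b| + 1) < 0 := by
    have := le_abs_self b
    have := abs_nonneg b
    linarith
  nlinarith [mul_neg_of_pos_of_neg h3 h4]

theorem continuous_bil_self : Continuous (fun z : (Fin 3 → Fin 3 → ℝ) × E3 => bil z.1 z.2 z.2) := by
  unfold bil
  fun_prop

theorem bil_smul_self (P : Fin 3 → Fin 3 → ℝ) (r : ℝ) (x : E3) :
    bil P (r • x) (r • x) = r ^ 2 * bil P x x := by
  simp only [bil, PiLp.smul_apply, smul_eq_mul, Finset.mul_sum]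
  refine Finset.sum_congr rfl fun i _ => Finset.sum_congr rfl fun j _ => ?_
  ring

/-- A continuous family of functions on the sphere which is nonnegative for `t = 0` and somewhere
nonpositive for `t = 1` touches zero. -/
theorem exists_touch_time (q : ℝ → E3 → ℝ) (hqc : Continuous (fun z : ℝ × E3 => q z.1 z.2))
    (h0 : ∀ x, ‖x‖ = 1 → 0 ≤ q 0 x) (n₁ : E3) (hn₁ : ‖n₁‖ = 1) (h1 : q 1 n₁ ≤ 0) :
    ∃ t ∈ Icc (0 : ℝ) 1, ∃ e : E3, ‖e‖ = 1 ∧ q t e = 0 ∧ ∀ x, ‖x‖ = 1 → 0 ≤ q t x := by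
  have hS : IsCompact (Metric.sphere (0 : E3) 1) := isCompact_sphere _ _
  have hn₁S : n₁ ∈ Metric.sphere (0 : E3) 1 := by simpa using hn₁
  have hSne : (Metric.sphere (0 : E3) 1).Nonempty := ⟨n₁, hn₁S⟩
  have hqct : ∀ t, Continuous (q t) := fun t => hqc.comp (Continuous.prodMk_right t)
  have hbdd : ∀ t, BddBelow (q t '' Metric.sphere (0 : E3) 1) := fun t =>
    (hS.image (hqct t)).bddBelow
  have hmc : Continuous (fun t => sInf (q t '' Metric.sphere (0 : E3) 1)) := hS.continuous_sInf hqc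
  have hm0 : 0 ≤ sInf (q 0 '' Metric.sphere (0 : E3) 1) := by
    apply le_csInf (hSne.image _)
    rintro _ ⟨x, hx, rfl⟩
    exact h0 x (by simpa using hx)
  have hm1 : sInf (q 1 '' Metric.sphere (0 : E3) 1) ≤ 0 :=
    (csInf_le (hbdd 1) (mem_image_of_mem _ hn₁S)).trans h1
  obtain ⟨t, ht, hmt⟩ := intermediate_value_Icc' (zero_le_one' ℝ) hmc.continuousOn
    (show (0 : ℝ) ∈ Icc (sInf (q 1 '' Metric.sphere (0 : E3) 1))
      (sInf (q 0 '' Metric.sphere (0 : E3) 1)) from ⟨hm1, hm0⟩)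
  obtain ⟨e, heS, hqe⟩ := (hS.image (hqct t)).sInf_mem (hSne.image _)
  refine ⟨t, ht, e, by simpa using heS, by rw [hqe]; exact hmt, fun x hx => ?_⟩
  rw [← hmt]
  exact csInf_le (hbdd t) (mem_image_of_mem _ (by simpa using hx))

/-- If the form `‖x‖² - 2 P(x,x)` is nonnegative and vanishes at `e` then `e` is in its kernel. -/
theorem kernel_of_touch (C : Set E3) (P : Fin 3 → Fin 3 → ℝ)
    (hPmem : P ∈ convexHull ℝ (outer '' C)) (e : E3) (he : ‖e‖ = 1) (he0 : ‖e‖ ^ 2 - 2 * bil P e e = 0)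
    (hunit : ∀ x, ‖x‖ = 1 → 0 ≤ ‖x‖ ^ 2 - 2 * bil P x x) (x : E3) :
    2 * bil P e x = inner ℝ e x := by
  have hall : ∀ x, 0 ≤ ‖x‖ ^ 2 - 2 * bil P x x := by
    intro x
    by_cases hx : x = 0
    · subst hx
      simp [bil]
    · have hxpos : 0 < ‖x‖ := norm_pos_iff.2 hx
      have hu : ‖‖x‖⁻¹ • x‖ = 1 := by rw [norm_smul, norm_inv, norm_norm, inv_mul_cancel₀ hxpos.ne']
      have h1 := hunit _ hu
      have h2 : ‖‖x‖⁻¹ • x‖ ^ 2 - 2 * bil P (‖x‖⁻¹ • x) (‖x‖⁻¹ • x)
          = (‖x‖⁻¹) ^ 2 * (‖x‖ ^ 2 - 2 * bil P x x) := by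
        rw [bil_smul_self, norm_smul, norm_inv, norm_norm]
        ring
      rw [h2] at h1
      exact nonneg_of_mul_nonneg_right h1 (by positivity)
  obtain ⟨N, w, n, hw, hw1, hn, hbil⟩ := weights_of_mem _ _ hPmem
  have hexp : ∀ s : ℝ, bil P (e + s • x) (e + s • x)
      = bil P e e + 2 * s * bil P e x + s ^ 2 * bil P x x := by
    intro s
    rw [hbil, hbil, hbil, hbil, Finset.mul_sum, Finset.mul_sum, ← Finset.sum_add_distrib,
      ← Finset.sum_add_distrib]
    refine Finset.sum_congr rfl fun i _ => ?_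
    rw [inner_add_right, inner_smul_right]
    ring
  have hz := eq_zero_of_quad (inner ℝ e x - 2 * bil P e x) (‖x‖ ^ 2 - 2 * bil P x x) (by
    intro s
    have h1 := hall (e + s • x)
    rw [hexp, norm_add_sq_real, inner_smul_right, norm_smul, mul_pow, Real.norm_eq_abs,
      sq_abs] at h1
    linarith)
  linarith

theorem exists_touch (C : Set E3) (hC : ∀ n ∈ C, ‖n‖ = 1) (P : Fin 3 → Fin 3 → ℝ)
    (hPmem : P ∈ convexHull ℝ (outer '' C)) (hP : ∀ x, 2 * bil P x x ≤ ‖x‖ ^ 2) :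
    ∃ P' ∈ convexHull ℝ (outer '' C), ∃ e : E3, ‖e‖ = 1 ∧
      ∀ x, 2 * bil P' e x = inner ℝ e x := by
  have hne : (outer '' C).Nonempty := by
    rw [← convexHull_nonempty_iff (𝕜 := ℝ)]
    exact ⟨P, hPmem⟩
  obtain ⟨_, n₁, hn₁, -⟩ := hne
  have hPtc : Continuous (fun t : ℝ => (1 - t) • P + t • outer n₁) := by fun_prop
  have hqc : Continuous (fun z : ℝ × E3 =>
      ‖z.2‖ ^ 2 - 2 * bil ((1 - z.1) • P + z.1 • outer n₁) z.2 z.2) := by
    have h1 : Continuous (fun z : ℝ × E3 => bil ((1 - z.1) • P + z.1 • outer n₁) z.2 z.2) :=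
      continuous_bil_self.comp ((hPtc.comp continuous_fst).prodMk continuous_snd)
    fun_prop
  obtain ⟨t, ht, e, he1, hqe, hq⟩ := exists_touch_time
    (fun t x => ‖x‖ ^ 2 - 2 * bil ((1 - t) • P + t • outer n₁) x x) hqc
    (by
      intro x _
      have := hP x
      simp only [sub_zero, one_smul, zero_smul, add_zero]
      linarith) n₁ (hC n₁ hn₁)
    (by
      simp only [sub_self, zero_smul, one_smul, zero_add, bil_outer, real_inner_self_eq_norm_sq,
        hC n₁ hn₁]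
      norm_num)
  have hmem : (1 - t) • P + t • outer n₁ ∈ convexHull ℝ (outer '' C) := by
    apply (convex_convexHull ℝ _) hPmem (subset_convexHull ℝ _ (mem_image_of_mem outer hn₁))
    · linarith [ht.2]
    · exact ht.1
    · ring
  exact ⟨_, hmem, e, he1, kernel_of_touch C _ hmem e he1 hqe hq⟩

/-- The space of maximal vectors. -/
def maxSpace (A₀ : E3 →L[ℝ] E3) : Submodule ℝ E3 where
  carrier := {η | ∀ x, inner ℝ (A₀ η) (A₀ x) = ‖A₀‖ ^ 2 * inner ℝ η x}
  add_mem' := by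
    intro a b ha hb x
    rw [map_add, inner_add_left, inner_add_left, ha x, hb x]; ring
  zero_mem' := by
    intro x
    simp
  smul_mem' := by
    intro c a ha x
    rw [map_smul, inner_smul_left, inner_smul_left, ha x]
    ring

theorem norm_of_mem_maxSpace (A₀ : E3 →L[ℝ] E3) (η : E3) (hη : η ∈ maxSpace A₀) (h1 : ‖η‖ = 1) :
    ‖A₀ η‖ = ‖A₀‖ := by
  have := hη η
  rw [real_inner_self_eq_norm_sq, real_inner_self_eq_norm_sq, h1] at this
  have h2 : ‖A₀ η‖ ^ 2 = ‖A₀‖ ^ 2 := by rw [this]; ring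
  exact (pow_left_inj₀ (norm_nonneg _) (norm_nonneg _) two_ne_zero).1 h2

theorem mem_maxSpace (A₀ : E3 →L[ℝ] E3) (η : E3) (h1 : ‖η‖ = 1) (h : ‖A₀ η‖ = ‖A₀‖) :
    η ∈ maxSpace A₀ := fun x => inner_max A₀ η x h1 h

/-- **The linear-algebraic heart**: a good ellipsoid inside a symmetric convex body. -/
theorem exists_good_ellipsoid (K : Set E3) (hK : IsCompact K) (hconv : Convex ℝ K)
    (hsymK : ∀ x ∈ K, -x ∈ K) (r : ℝ) (hr : 0 < r) (hrK : Metric.closedBall 0 r ⊆ K) :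
    ∃ A : E3 ≃L[ℝ] E3, Feas K (A : E3 →L[ℝ] E3) ∧
      ENNReal.ofReal ‖(A : E3 →L[ℝ] E3)‖ * minShadow K
      ≤ ENNReal.ofReal |LinearMap.det (A : E3 →ₗ[ℝ] E3)| * ENNReal.ofReal 6.24 := by
  obtain ⟨A₀, hA₀, hdet, hmax⟩ := exists_maximizer K hK r hr hrK
  obtain ⟨P, hP, Y, hY, hPY⟩ := kkt K hK hconv A₀ hA₀ hdet hmax
  set A : E3 ≃L[ℝ] E3 := A₀.toContinuousLinearEquivOfDetNeZero hdet with hA
  have hAA : (A : E3 →L[ℝ] E3) = A₀ := ContinuousLinearMap.coe_toContinuousLinearEquivOfDetNeZero _ _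
  refine ⟨A, by rw [hAA]; exact hA₀, ?_⟩
  rw [← hAA] at hP hY
  have hAmax : ∀ η, ‖η‖ = 1 → η ∈ maxSpace (A : E3 →L[ℝ] E3) → ‖A η‖ = ‖(A : E3 →L[ℝ] E3)‖ :=
    fun η h1 h2 => norm_of_mem_maxSpace _ η h2 h1
  obtain ⟨NY, wY, nY, hwY, hwY1, hnY, hbilY⟩ := weights_of_mem _ Y hY
  by_cases hcase : ∃ e : E3, ‖e‖ = 1 ∧ ∀ x, inner ℝ e x = (0 : ℝ) → x ∈ maxSpace (A : E3 →L[ℝ] E3)
  · obtain ⟨e, he, hperp⟩ := hcase
    by_cases heW : e ∈ maxSpace (A : E3 →L[ℝ] E3)
    · -- every vector is maximal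
      have htop : ∀ x, x ∈ maxSpace (A : E3 →L[ℝ] E3) := by
        intro x
        have h1 : x - inner ℝ e x • e ∈ maxSpace (A : E3 →L[ℝ] E3) := by
          apply hperp
          rw [inner_sub_right, inner_smul_right, real_inner_self_eq_norm_sq, he]
          ring
        have h2 := (maxSpace (A : E3 →L[ℝ] E3)).add_mem h1
          ((maxSpace (A : E3 →L[ℝ] E3)).smul_mem (inner ℝ e x) heW)
        simpa using h2
      have hPle : ∀ x, 2 * bil P x x ≤ ‖x‖ ^ 2 := by
        intro x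
        have h1 := hPY x x
        rw [real_inner_self_eq_norm_sq] at h1
        have h2 : 0 ≤ bil Y x x := by
          rw [hbilY]
          exact Finset.sum_nonneg fun i _ => mul_nonneg (hwY i) (mul_self_nonneg _)
        linarith
      obtain ⟨P', hP', e', he', hPe'⟩ := exists_touch _ (fun n hn => hn.1) P hP hPle
      exact case_two K hK hsymK A P' hP' e' he' (fun η hη _ => hAmax η hη (htop η)) hPe'
    · -- the maximal space is the plane orthogonal to `e`
      have horth : ∀ w ∈ maxSpace (A : E3 →L[ℝ] E3), inner ℝ e w = (0 : ℝ) := by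
        intro w hw
        by_contra hne
        apply heW
        have h1 : w - inner ℝ e w • e ∈ maxSpace (A : E3 →L[ℝ] E3) := by
          apply hperp
          rw [inner_sub_right, inner_smul_right, real_inner_self_eq_norm_sq, he]
          ring
        have h2 := (maxSpace (A : E3 →L[ℝ] E3)).sub_mem hw h1
        have h3 : w - (w - inner ℝ e w • e) = inner ℝ e w • e := by abel
        rw [h3] at h2
        exact ((maxSpace (A : E3 →L[ℝ] E3)).smul_mem_iff hne).1 h2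
      refine case_two K hK hsymK A P hP e he (fun η hη h0 => hAmax η hη (hperp η h0)) ?_
      intro x
      have h1 := hPY e x
      have h2 : bil Y e x = 0 := by
        rw [hbilY]
        refine Finset.sum_eq_zero fun i _ => ?_
        have h3 := horth (nY i) (mem_maxSpace _ _ (hnY i).1 (hnY i).2)
        rw [real_inner_comm] at h3
        rw [h3]; ring
      linarith
  · -- the maximal space is a line
    obtain ⟨η₀, hη₀, hatt⟩ := opNorm_attained (A : E3 →L[ℝ] E3)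
    have hη₀A : ‖(A : E3 →L[ℝ] E3) η₀‖ = ‖(A : E3 →L[ℝ] E3)‖ := by
      refine le_antisymm ?_ hatt
      have := (A : E3 →L[ℝ] E3).le_opNorm η₀
      rwa [hη₀, mul_one] at this
    have hη₀W := mem_maxSpace _ η₀ hη₀ hη₀A
    have hline : ∀ w ∈ maxSpace (A : E3 →L[ℝ] E3), w = inner ℝ η₀ w • η₀ := by
      intro w hw
      by_contra hne
      apply hcase
      set w' : E3 := w - inner ℝ η₀ w • η₀ with hw'
      have hw'0 : w' ≠ 0 := by
        rw [hw']
        exact sub_ne_zero.2 hne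
      have hw'W : w' ∈ maxSpace (A : E3 →L[ℝ] E3) :=
        (maxSpace (A : E3 →L[ℝ] E3)).sub_mem hw ((maxSpace (A : E3 →L[ℝ] E3)).smul_mem _ hη₀W)
      have hw'o : inner ℝ η₀ w' = (0 : ℝ) := by
        rw [hw', inner_sub_right, inner_smul_right, real_inner_self_eq_norm_sq, hη₀]
        ring
      have hw'pos : 0 < ‖w'‖ := norm_pos_iff.2 hw'0
      obtain ⟨b, hb1, hb2⟩ := exists_basis_two η₀ (‖w'‖⁻¹ • w') hη₀
        (by rw [norm_smul, norm_inv, norm_norm, inv_mul_cancel₀ hw'pos.ne'])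
        (by rw [inner_smul_right, hw'o, mul_zero])
      refine ⟨b 0, basis_unit b 0, fun x hx => ?_⟩
      have hsum := b.sum_repr x
      rw [Fin.sum_univ_three, OrthonormalBasis.repr_apply_apply, hx, zero_smul, zero_add, hb1,
        hb2] at hsum
      rw [← hsum]
      exact (maxSpace (A : E3 →L[ℝ] E3)).add_mem ((maxSpace (A : E3 →L[ℝ] E3)).smul_mem _ hη₀W)
        ((maxSpace (A : E3 →L[ℝ] E3)).smul_mem _ ((maxSpace (A : E3 →L[ℝ] E3)).smul_mem _ hw'W))
    have hYform : ∀ x y, bil Y x y = inner ℝ η₀ x * inner ℝ η₀ y := by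
      intro x y
      rw [hbilY]
      have h1 : ∀ i, wY i * (inner ℝ (nY i) x * inner ℝ (nY i) y)
          = wY i * (inner ℝ η₀ x * inner ℝ η₀ y) := by
        intro i
        have h2 := hline (nY i) (mem_maxSpace _ _ (hnY i).1 (hnY i).2)
        have h3 : (inner ℝ η₀ (nY i) : ℝ) ^ 2 = 1 := by
          have h4 := (hnY i).1
          rw [h2, norm_smul, hη₀, mul_one, Real.norm_eq_abs] at h4
          rw [← sq_abs, h4]; norm_num
        rw [h2, inner_smul_left, inner_smul_left]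
        simp only [conj_trivial]
        linear_combination (wY i * (inner ℝ η₀ x * inner ℝ η₀ y)) * h3
      simp only [h1]
      rw [← Finset.sum_mul, hwY1, one_mul]
    refine case_one K hK hsymK A P hP η₀ hη₀ hη₀A ?_
    intro x y
    have := hPY x y
    rw [hYform] at this
    linarith

end Vale.Agent.P243sym
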