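import Vale.Agent.P243_sym.Optim

open MeasureTheory Set Filter Topology
open scoped ENNReal InnerProductSpace

namespace Vale.Agent.P243sym

theorem opNorm_attained (A : E3 →L[ℝ] E3) : ∃ η : E3, ‖η‖ = 1 ∧ ‖A‖ ≤ ‖A η‖ := by
  have hc : IsCompact (Metric.sphere (0 : E3) 1) := isCompact_sphere _ _
  have hne : (Metric.sphere (0 : E3) 1).Nonempty := by
    refine ⟨EuclideanSpace.single 0 1, ?_⟩
    simp
  obtain ⟨η, hη, hmax⟩ := hc.exists_isMaxOn hne (f := fun x => ‖A x‖) (by fun_prop)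
  refine ⟨η, by simpa using hη, ?_⟩
  refine A.opNorm_le_of_unit_norm (norm_nonneg _) fun x hx => ?_
  exact hmax (by simpa using hx : x ∈ Metric.sphere (0 : E3) 1)

/-- At a maximal vector of `A`, the quadratic form `‖A‖² ‖x‖² - ‖A x‖²` is stationary. -/
theorem inner_max (A : E3 →L[ℝ] E3) (η x : E3) (hη : ‖η‖ = 1) (h : ‖A η‖ = ‖A‖) :
    inner ℝ (A η) (A x) = ‖A‖ ^ 2 * inner ℝ η x := by
  have key : ∀ s : ℝ, 0 ≤ 2 * s * (‖A‖ ^ 2 * inner ℝ η x - inner ℝ (A η) (A x))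
      + s ^ 2 * (‖A‖ ^ 2 * ‖x‖ ^ 2 - ‖A x‖ ^ 2) := by
    intro s
    have h1 := A.le_opNorm (η + s • x)
    have h2 : ‖A (η + s • x)‖ ^ 2 ≤ ‖A‖ ^ 2 * ‖η + s • x‖ ^ 2 := by
      rw [← mul_pow]; gcongr
    rw [map_add, map_smul, norm_add_sq_real, norm_add_sq_real, norm_smul, norm_smul, hη, h,
      inner_smul_right, inner_smul_right, mul_pow, mul_pow, Real.norm_eq_abs, sq_abs] at h2
    nlinarith
  set a := ‖A‖ ^ 2 * inner ℝ η x - inner ℝ (A η) (A x) with ha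
  set b := ‖A‖ ^ 2 * ‖x‖ ^ 2 - ‖A x‖ ^ 2 with hb
  have ha0 : a = 0 := by
    by_contra hne
    have hb1 : 0 < |b| + 1 := by positivity
    have := key (-a / (|b| + 1))
    have e : 2 * (-a / (|b| + 1)) * a + (-a / (|b| + 1)) ^ 2 * b
        = a ^ 2 / (|b| + 1) ^ 2 * (b - 2 * (|b| + 1)) := by
      field_simp
      ring
    rw [e] at this
    have h3 : 0 < a ^ 2 / (|b| + 1) ^ 2 := by positivity
    have h4 : b - 2 * (|b| + 1) < 0 := by
      have := le_abs_self b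
      have := abs_nonneg b
      linarith
    nlinarith [mul_neg_of_pos_of_neg h3 h4]
  linarith

/-- Contact directions. -/
def Contact (K : Set E3) (A₀ : E3 →L[ℝ] E3) : Set E3 :=
  {n | ‖n‖ = 1 ∧ ∀ x : E3, A₀ x ∈ K → inner ℝ n x ≤ 1}

theorem eventually_feasible (K : Set E3) (hK : IsCompact K) (hconv : Convex ℝ K)
    (A₀ : E3 →L[ℝ] E3) (hA₀ : Feas K A₀) (H : E3 →L[ℝ] E3)
    (hsym : ∀ x y, inner ℝ (H x) y = inner ℝ x (H y))
    (hneg : ∀ n ∈ Contact K A₀, inner ℝ n (H n) < 0) :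
    ∀ᶠ t : ℝ in 𝓝 0, 0 < t → Feas K (A₀.comp (ContinuousLinearMap.id ℝ E3 + t • H)) := by
  have hev : ∀ᶠ t : ℝ in 𝓝 0, ∀ n ∈ Metric.sphere (0 : E3) 1,
      ‖n‖ = 1 → 0 < t → ∃ z, A₀ z ∈ K ∧ ‖n + t • H n‖ ≤ inner ℝ n z := by
    apply (isCompact_sphere (0 : E3) 1).eventually_forall_of_forall_eventually
    intro n₀ hn₀
    have hn₀1 : ‖n₀‖ = 1 := by simpa using hn₀
    by_cases hC : n₀ ∈ Contact K A₀
    · have hcont : Continuous (fun z : ℝ × E3 => 2 * inner ℝ z.2 (H z.2) + z.1 * ‖H z.2‖ ^ 2) := by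
        fun_prop
      have h0 : 2 * inner ℝ n₀ (H n₀) + 0 * ‖H n₀‖ ^ 2 < 0 := by
        have := hneg n₀ hC
        linarith
      have hev := hcont.continuousAt.eventually_lt (x₀ := ((0 : ℝ), n₀)) (continuousAt_const (y := (0:ℝ))) h0
      filter_upwards [hev] with z hz hz1 hzt
      refine ⟨z.2, hA₀ _ hz1.le, ?_⟩
      rw [real_inner_self_eq_norm_sq, hz1]
      have h1 : ‖z.2 + z.1 • H z.2‖ ^ 2 ≤ 1 := by
        rw [norm_add_sq_real, hz1, inner_smul_right, norm_smul, mul_pow, Real.norm_eq_abs, sq_abs]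
        nlinarith
      nlinarith [norm_nonneg (z.2 + z.1 • H z.2)]
    · have : ∃ x, A₀ x ∈ K ∧ 1 < inner ℝ n₀ x := by
        by_contra hcon
        push Not at hcon
        exact hC ⟨hn₀1, hcon⟩
      obtain ⟨x, hxK, hx⟩ := this
      have hc1 : Continuous (fun z : ℝ × E3 => ‖z.2 + z.1 • H z.2‖) := by fun_prop
      have hc2 : Continuous (fun z : ℝ × E3 => (inner ℝ z.2 x : ℝ)) := by fun_prop
      have h0 : ‖n₀ + (0 : ℝ) • H n₀‖ < inner ℝ n₀ x := by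
        simp [hn₀1, hx]
      have hev := hc1.continuousAt.eventually_lt (x₀ := ((0 : ℝ), n₀)) hc2.continuousAt h0
      filter_upwards [hev] with z hz _ _
      exact ⟨x, hxK, hz.le⟩
  filter_upwards [hev] with t ht htpos x hx
  by_contra hnot
  obtain ⟨f, s, hf1, hf2⟩ := geometric_hahn_banach_closed_point hconv hK.isClosed hnot
  set v : E3 := (InnerProductSpace.toDual ℝ E3).symm (f.comp A₀) with hv
  have hvz : ∀ z, inner ℝ v z = f (A₀ z) := by
    intro z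
    rw [hv, InnerProductSpace.toDual_symm_apply]; rfl
  have h0K : (0 : E3) ∈ K := by
    have := hA₀ 0 (by simp)
    simpa using this
  have hs : 0 < s := by
    have := hf1 0 h0K
    simpa using this
  have hy : f (A₀ (x + t • H x)) = inner ℝ (v + t • H v) x := by
    rw [← hvz, inner_add_right, inner_smul_right, inner_add_left, inner_smul_left, hsym]
    simp
  have hcomp : (A₀.comp (ContinuousLinearMap.id ℝ E3 + t • H)) x = A₀ (x + t • H x) := by simp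
  rw [hcomp, hy] at hf2
  have hv0 : v ≠ 0 := by
    intro h
    rw [h] at hf2
    simp at hf2
    linarith
  have hvpos : 0 < ‖v‖ := norm_pos_iff.2 hv0
  have hn1 : ‖‖v‖⁻¹ • v‖ = 1 := by rw [norm_smul, norm_inv, norm_norm, inv_mul_cancel₀ hvpos.ne']
  obtain ⟨z, hzK, hz⟩ := ht (‖v‖⁻¹ • v) (by simpa using hn1) hn1 htpos
  have h5 : ‖v + t • H v‖ ≤ inner ℝ v z := by
    have e1 : ‖v‖⁻¹ • v + t • H (‖v‖⁻¹ • v) = ‖v‖⁻¹ • (v + t • H v) := by
      rw [map_smul, smul_add, smul_comm t]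
    rw [e1, norm_smul, norm_inv, norm_norm, inner_smul_left] at hz
    simp only [conj_trivial] at hz
    exact le_of_mul_le_mul_left hz (inv_pos.2 hvpos)
  have h6 : inner ℝ (v + t • H v) x ≤ ‖v + t • H v‖ := by
    calc inner ℝ (v + t • H v) x ≤ ‖v + t • H v‖ * ‖x‖ := real_inner_le_norm _ _
      _ ≤ ‖v + t • H v‖ := mul_le_of_le_one_right (norm_nonneg _) hx
  have h7 := hf1 _ hzK
  rw [← hvz] at h7
  linarith

theorem eventually_increase (A₀ : E3 →L[ℝ] E3) (hA₀ : A₀.det ≠ 0) (H : E3 →L[ℝ] E3) (τ : ℝ)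
    (p : ℝ → ℝ) (hp : Continuous p)
    (hdet : ∀ t : ℝ, (ContinuousLinearMap.id ℝ E3 + t • H).det = 1 + τ * t + p t * t ^ 2)
    (hpos : ∀ η : E3, ‖η‖ = 1 → ‖A₀ η‖ = ‖A₀‖ → inner ℝ η (H η) < τ) :
    ∀ᶠ t : ℝ in 𝓝 0, 0 < t →
      ‖A₀.comp (ContinuousLinearMap.id ℝ E3 + t • H)‖
        < (ContinuousLinearMap.id ℝ E3 + t • H).det * ‖A₀‖ := by
  have hA₀pos : 0 < ‖A₀‖ := by
    rw [norm_pos_iff]
    rintro rfl
    have := abs_det_le (0 : E3 →L[ℝ] E3)
    rw [norm_zero] at this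
    have h2 : |(0 : E3 →L[ℝ] E3).det| = 0 := le_antisymm (by simpa using this) (abs_nonneg _)
    exact hA₀ (abs_eq_zero.1 h2)
  -- the determinant is eventually positive
  have hdpos : ∀ᶠ t : ℝ in 𝓝 0, 0 < 1 + τ * t + p t * t ^ 2 := by
    have hc : Continuous (fun t : ℝ => 1 + τ * t + p t * t ^ 2) := by fun_prop
    exact (continuousAt_const (y := (0:ℝ))).eventually_lt hc.continuousAt (by simp)
  have hev : ∀ᶠ t : ℝ in 𝓝 0, ∀ η ∈ Metric.sphere (0 : E3) 1,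
      ‖η‖ = 1 → 0 < t → 0 < 1 + τ * t + p t * t ^ 2 →
        ‖A₀ (η + t • H η)‖ < (1 + τ * t + p t * t ^ 2) * ‖A₀‖ := by
    apply (isCompact_sphere (0 : E3) 1).eventually_forall_of_forall_eventually
    intro η₀ hη₀
    have hη₀1 : ‖η₀‖ = 1 := by simpa using hη₀
    by_cases hm : ‖A₀ η₀‖ = ‖A₀‖
    · set q : ℝ → ℝ := fun t => τ ^ 2 + 2 * p t + 2 * τ * p t * t + p t ^ 2 * t ^ 2 with hq
      have hcont : Continuous (fun z : ℝ × E3 => 2 * ‖A₀‖ ^ 2 * τ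
          - 2 * inner ℝ (A₀ z.2) (A₀ (H z.2))
          + z.1 * (‖A₀‖ ^ 2 * q z.1 - ‖A₀ (H z.2)‖ ^ 2)) := by
        simp only [hq]
        fun_prop
      have h0 : 0 < 2 * ‖A₀‖ ^ 2 * τ
          - 2 * inner ℝ (A₀ η₀) (A₀ (H η₀))
          + 0 * (‖A₀‖ ^ 2 * q 0 - ‖A₀ (H η₀)‖ ^ 2) := by
        rw [inner_max A₀ η₀ (H η₀) hη₀1 hm]
        have := hpos η₀ hη₀1 hm
        have h2 : 0 < ‖A₀‖ ^ 2 := by positivity
        nlinarith
      have hev := (continuousAt_const (y := (0:ℝ))).eventually_lt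
        (hcont.continuousAt (x := ((0 : ℝ), η₀))) h0
      filter_upwards [hev] with z hz hz1 hzt hzd
      have hle : ‖A₀ z.2‖ ^ 2 ≤ ‖A₀‖ ^ 2 := by
        have := A₀.le_opNorm z.2
        rw [hz1, mul_one] at this
        gcongr
      have hsq : ‖A₀ (z.2 + z.1 • H z.2)‖ ^ 2
          < ((1 + τ * z.1 + p z.1 * z.1 ^ 2) * ‖A₀‖) ^ 2 := by
        rw [map_add, map_smul, norm_add_sq_real, inner_smul_right, norm_smul, mul_pow,
          Real.norm_eq_abs, sq_abs]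
        have e : ((1 + τ * z.1 + p z.1 * z.1 ^ 2) * ‖A₀‖) ^ 2
            = ‖A₀‖ ^ 2 + z.1 * (2 * ‖A₀‖ ^ 2 * τ) + z.1 ^ 2 * (‖A₀‖ ^ 2 * q z.1) := by
          simp only [hq]; ring
        rw [e]
        have := mul_pos hzt hz
        nlinarith
      exact lt_of_pow_lt_pow_left₀ 2 (by positivity) hsq
    · have hlt : ‖A₀ η₀‖ < ‖A₀‖ := by
        refine lt_of_le_of_ne ?_ hm
        have := A₀.le_opNorm η₀
        rwa [hη₀1, mul_one] at this
      have hc1 : Continuous (fun z : ℝ × E3 => ‖A₀ (z.2 + z.1 • H z.2)‖) := by fun_prop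
      have hc2 : Continuous (fun z : ℝ × E3 => (1 + τ * z.1 + p z.1 * z.1 ^ 2) * ‖A₀‖) := by
        fun_prop
      have hev := (hc1.continuousAt (x := ((0 : ℝ), η₀))).eventually_lt hc2.continuousAt
        (by simpa using hlt)
      filter_upwards [hev] with z hz _ _ _
      exact hz
  filter_upwards [hev, hdpos] with t ht htd htpos
  obtain ⟨η, hη, hatt⟩ := opNorm_attained (A₀.comp (ContinuousLinearMap.id ℝ E3 + t • H))
  rw [hdet]
  refine lt_of_le_of_lt hatt ?_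
  have := ht η (by simpa using hη) hη htpos htd
  simpa using this

/-- **First-order optimality**: no symmetric perturbation is good. -/
theorem no_good_perturbation (K : Set E3) (hK : IsCompact K) (hconv : Convex ℝ K)
    (A₀ : E3 →L[ℝ] E3) (hA₀ : Feas K A₀) (hdet₀ : A₀.det ≠ 0)
    (hmax : ∀ A : E3 →L[ℝ] E3, Feas K A → |A.det| * ‖A₀‖ ≤ |A₀.det| * ‖A‖)
    (H : E3 →L[ℝ] E3) (hsym : ∀ x y, inner ℝ (H x) y = inner ℝ x (H y))
    (τ : ℝ) (p : ℝ → ℝ) (hp : Continuous p)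
    (hdet : ∀ t : ℝ, (ContinuousLinearMap.id ℝ E3 + t • H).det = 1 + τ * t + p t * t ^ 2)
    (hneg : ∀ n ∈ Contact K A₀, inner ℝ n (H n) < 0) :
    ∃ η : E3, ‖η‖ = 1 ∧ ‖A₀ η‖ = ‖A₀‖ ∧ τ ≤ inner ℝ η (H η) := by
  by_contra hcon
  push Not at hcon
  have h1 := eventually_feasible K hK hconv A₀ hA₀ H hsym hneg
  have h2 := eventually_increase A₀ hdet₀ H τ p hp hdet hcon
  have h3 : ∀ᶠ t : ℝ in 𝓝 0, 0 < 1 + τ * t + p t * t ^ 2 := by
    have hc : Continuous (fun t : ℝ => 1 + τ * t + p t * t ^ 2) := by fun_prop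
    exact (continuousAt_const (y := (0:ℝ))).eventually_lt hc.continuousAt (by simp)
  obtain ⟨t, htpos, ht1, ht2, ht3⟩ :
      ∃ t : ℝ, 0 < t ∧ Feas K (A₀.comp (ContinuousLinearMap.id ℝ E3 + t • H)) ∧
        ‖A₀.comp (ContinuousLinearMap.id ℝ E3 + t • H)‖
        < (ContinuousLinearMap.id ℝ E3 + t • H).det * ‖A₀‖ ∧
        0 < 1 + τ * t + p t * t ^ 2 := by
    have hev := (h1.and (h2.and h3))
    rw [Metric.eventually_nhds_iff] at hev
    obtain ⟨ε, hε, hball⟩ := hev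
    have := hball (y := ε / 2) (by rw [Real.dist_eq]; rw [sub_zero, abs_of_pos (by positivity)]; linarith)
    exact ⟨ε / 2, by positivity, this.1 (by positivity), this.2.1 (by positivity), this.2.2⟩
  have h4 := hmax _ ht1
  have h5 : (A₀.comp (ContinuousLinearMap.id ℝ E3 + t • H)).det
      = A₀.det * (ContinuousLinearMap.id ℝ E3 + t • H).det := by
    simp only [ContinuousLinearMap.det, ContinuousLinearMap.coe_comp]
    exact LinearMap.det_comp _ _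
  rw [h5, abs_mul, hdet, abs_of_pos ht3] at h4
  rw [hdet] at ht2
  have h6 : 0 < |A₀.det| := abs_pos.2 hdet₀
  nlinarith

end Vale.Agent.P243sym
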