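import Mathlib

open MeasureTheory Set
open scoped ENNReal

namespace Vale.Agent.P243sym

/-- planar cross product. -/
def crs (x p : ℝ × ℝ) : ℝ := x.1 * p.2 - x.2 * p.1

/-- thickening of a compact interval. -/
theorem volume_thicken_le (C : Set ℝ) (hC : IsCompact C) (hconv : Convex ℝ C) (hne : C.Nonempty) :
    volume {t : ℝ | ∃ t' ∈ C, |t - t'| ≤ 1} ≤ volume C + 2 := by
  have hconn : IsConnected C := ⟨hne, hconv.isPreconnected⟩
  have h1 := eq_Icc_of_connected_compact hconn hC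
  have h2 : {t : ℝ | ∃ t' ∈ C, |t - t'| ≤ 1} ⊆ Icc (sInf C - 1) (sSup C + 1) := by
    rintro t ⟨t', ht', h⟩
    rw [h1] at ht'
    rw [abs_le] at h
    constructor
    · linarith [ht'.1]
    · linarith [ht'.2]
  refine (measure_mono h2).trans ?_
  conv_rhs => rw [h1]
  rw [Real.volume_Icc, Real.volume_Icc]
  have h3 : sInf C ≤ sSup C := by
    rw [h1] at hne
    exact nonempty_Icc.1 hne
  have : (2 : ℝ≥0∞) = ENNReal.ofReal 2 := by simp
  rw [this, ← ENNReal.ofReal_add (by linarith) (by norm_num)]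
  apply ENNReal.ofReal_le_ofReal
  linarith

theorem volume_add_segment_le (S : Set (ℝ × ℝ)) (hS : IsCompact S) (hconv : Convex ℝ S)
    (p : ℝ × ℝ) (w : ℝ) (hw : ∀ x ∈ S, |crs x p| ≤ w) :
    volume {y : ℝ × ℝ | ∃ x ∈ S, ∃ τ : ℝ, |τ| ≤ 1 ∧ y = x + τ • p}
      ≤ volume S + ENNReal.ofReal (4 * w) := by
  by_cases hp : p = 0
  · subst hp
    have : {y : ℝ × ℝ | ∃ x ∈ S, ∃ τ : ℝ, |τ| ≤ 1 ∧ y = x + τ • (0 : ℝ × ℝ)} ⊆ S := by
      rintro y ⟨x, hx, τ, -, rfl⟩
      simpa using hx
    exact (measure_mono this).trans le_self_add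
  set N : ℝ := p.1 ^ 2 + p.2 ^ 2 with hN
  have hNpos : 0 < N := by
    rcases (not_and_or.1 (fun h : p.1 = 0 ∧ p.2 = 0 => hp (Prod.ext h.1 h.2))) with h | h
    · positivity
    · positivity
  set F : (ℝ × ℝ) →ₗ[ℝ] (ℝ × ℝ) := Matrix.toLin (Module.Basis.finTwoProd ℝ) (Module.Basis.finTwoProd ℝ)
    !![p.2, -p.1; p.1 / N, p.2 / N] with hF
  have hFapp : ∀ x : ℝ × ℝ, F x = (crs x p, (x.1 * p.1 + x.2 * p.2) / N) := by
    intro x
    rw [hF, Matrix.toLin_finTwoProd]
    simp only [crs]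
    ext
    · simp; ring
    · simp; ring
  have hdet : LinearMap.det F = 1 := by
    rw [hF, LinearMap.det_toLin, Matrix.det_fin_two_of]
    field_simp
    rw [hN]; ring
  have hvol : ∀ X : Set (ℝ × ℝ), volume (F '' X) = volume X := by
    intro X
    rw [Measure.addHaar_image_linearMap, hdet]; simp
  set T := {y : ℝ × ℝ | ∃ x ∈ S, ∃ τ : ℝ, |τ| ≤ 1 ∧ y = x + τ • p} with hT
  have hTcomp : IsCompact T := by
    have : T = (fun q : (ℝ × ℝ) × ℝ => q.1 + q.2 • p) '' (S ×ˢ Icc (-1) 1) := by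
      ext y
      constructor
      · rintro ⟨x, hx, τ, hτ, rfl⟩
        exact ⟨(x, τ), ⟨hx, abs_le.1 hτ⟩, rfl⟩
      · rintro ⟨⟨x, τ⟩, ⟨hx, hτ⟩, rfl⟩
        exact ⟨x, hx, τ, abs_le.2 hτ, rfl⟩
    rw [this]
    exact (hS.prod isCompact_Icc).image (by fun_prop)
  have hFc : Continuous F := LinearMap.continuous_of_finiteDimensional F
  have hS'c : IsCompact (F '' S) := hS.image hFc
  have hT'c : IsCompact (F '' T) := hTcomp.image hFc
  have hS'conv : Convex ℝ (F '' S) := hconv.linear_image F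
  rw [← hvol T, ← hvol S]
  rw [Measure.volume_eq_prod, Measure.prod_apply hT'c.isClosed.measurableSet,
    Measure.prod_apply hS'c.isClosed.measurableSet]
  have hsec : ∀ s : ℝ, volume (Prod.mk s ⁻¹' (F '' T))
      ≤ volume (Prod.mk s ⁻¹' (F '' S)) + (Icc (-w) w).indicator (fun _ => (2 : ℝ≥0∞)) s := by
    intro s
    have hsub : Prod.mk s ⁻¹' (F '' T)
        ⊆ {t : ℝ | ∃ t' ∈ Prod.mk s ⁻¹' (F '' S), |t - t'| ≤ 1} := by
      rintro t ⟨y, ⟨x, hx, τ, hτ, rfl⟩, hy⟩
      rw [map_add, map_smul, hFapp x, hFapp p] at hy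
      have e1 := congrArg Prod.fst hy
      have e2 := congrArg Prod.snd hy
      simp only [Prod.fst_add, Prod.smul_fst, Prod.snd_add, Prod.smul_snd, smul_eq_mul] at e1 e2
      have c0 : crs p p = 0 := by simp [crs]; ring
      have c1 : (p.1 * p.1 + p.2 * p.2) / N = 1 := by
        rw [div_eq_one_iff_eq hNpos.ne', hN]; ring
      rw [c0] at e1
      rw [c1] at e2
      refine ⟨(x.1 * p.1 + x.2 * p.2) / N, ⟨x, hx, ?_⟩, ?_⟩
      · rw [hFapp x]
        ext
        · simp; linarith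
        · simp
      · have : t - (x.1 * p.1 + x.2 * p.2) / N = τ := by linarith
        rw [this]; exact hτ
    by_cases hne : (Prod.mk s ⁻¹' (F '' S)).Nonempty
    · have hcs : IsCompact (Prod.mk s ⁻¹' (F '' S)) := by
        have : Prod.mk s ⁻¹' (F '' S) = Prod.snd '' ((F '' S) ∩ (Prod.fst ⁻¹' {s})) := by
          ext t
          constructor
          · intro ht
            exact ⟨(s, t), ⟨ht, rfl⟩, rfl⟩
          · rintro ⟨⟨a, b⟩, ⟨h1, h2⟩, h3⟩
            simp only [mem_preimage, mem_singleton_iff] at h2 h3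
            subst h2; subst h3
            exact h1
        rw [this]
        apply IsCompact.image _ continuous_snd
        exact hS'c.inter_right (isClosed_singleton.preimage continuous_fst)
      have hcv : Convex ℝ (Prod.mk s ⁻¹' (F '' S)) := by
        intro a ha b hb c d hc hd hcd
        have := hS'conv ha hb hc hd hcd
        have e : c • (s, a) + d • (s, b) = (s, c • a + d • b) := by
          ext
          · simp [← add_mul, hcd]
          · simp
        rw [e] at this
        exact this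
      have hs : s ∈ Icc (-w) w := by
        obtain ⟨t, x, hx, hxt⟩ := hne
        rw [hFapp x] at hxt
        have e1 := congrArg Prod.fst hxt
        simp only at e1
        rw [← e1]
        exact abs_le.1 (hw x hx)
      rw [indicator_of_mem hs]
      exact (measure_mono hsub).trans (volume_thicken_le _ hcs hcv hne)
    · rw [not_nonempty_iff_eq_empty] at hne
      have : Prod.mk s ⁻¹' (F '' T) ⊆ ∅ := by
        intro t ht
        obtain ⟨t', ht', -⟩ := hsub ht
        rw [hne] at ht'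
        exact ht'.elim
      rw [subset_empty_iff.1 this]
      simp
  refine (lintegral_mono hsec).trans ?_
  rw [lintegral_add_right _ (measurable_const.indicator measurableSet_Icc),
    lintegral_indicator measurableSet_Icc, lintegral_const, Measure.restrict_apply MeasurableSet.univ,
    univ_inter, Real.volume_Icc]
  gcongr
  rw [show (2 : ℝ≥0∞) = ENNReal.ofReal 2 by simp, ← ENNReal.ofReal_mul (by norm_num)]
  apply ENNReal.ofReal_le_ofReal
  linarith

/-- the zonogon generated by the vectors `p i`, `i ∈ s`. -/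
def zon {ι : Type*} (p : ι → ℝ × ℝ) (s : Finset ι) : Set (ℝ × ℝ) :=
  {x | ∃ t : ι → ℝ, (∀ i, |t i| ≤ 1) ∧ x = ∑ i ∈ s, t i • p i}

theorem isCompact_zon {ι : Type*} (p : ι → ℝ × ℝ) (s : Finset ι) : IsCompact (zon p s) := by
  have : zon p s = (fun t : ι → ℝ => ∑ i ∈ s, t i • p i) '' (Set.pi univ fun _ => Icc (-1) 1) := by
    ext x
    constructor
    · rintro ⟨t, ht, rfl⟩
      exact ⟨t, fun i _ => abs_le.1 (ht i), rfl⟩
    · rintro ⟨t, ht, rfl⟩
      exact ⟨t, fun i => abs_le.2 (ht i (mem_univ i)), rfl⟩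
  rw [this]
  exact (isCompact_univ_pi fun _ => isCompact_Icc).image (by fun_prop)

theorem convex_zon {ι : Type*} (p : ι → ℝ × ℝ) (s : Finset ι) : Convex ℝ (zon p s) := by
  rintro x ⟨t, ht, rfl⟩ y ⟨r, hr, rfl⟩ a b ha hb hab
  refine ⟨fun i => a * t i + b * r i, fun i => ?_, ?_⟩
  · calc |a * t i + b * r i| ≤ |a * t i| + |b * r i| := abs_add_le _ _
      _ = a * |t i| + b * |r i| := by rw [abs_mul, abs_mul, abs_of_nonneg ha, abs_of_nonneg hb]
      _ ≤ a * 1 + b * 1 := by gcongr; exacts [ht i, hr i]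
      _ = 1 := by linarith
  · rw [Finset.smul_sum, Finset.smul_sum, ← Finset.sum_add_distrib]
    refine Finset.sum_congr rfl fun i _ => ?_
    rw [smul_smul, smul_smul, ← add_smul]

theorem crs_sum {ι : Type*} (p : ι → ℝ × ℝ) (s : Finset ι) (t : ι → ℝ) (q : ℝ × ℝ) :
    crs (∑ i ∈ s, t i • p i) q = ∑ i ∈ s, t i * crs (p i) q := by
  simp only [crs, Prod.fst_sum, Prod.snd_sum, Prod.smul_fst, Prod.smul_snd, smul_eq_mul,
    Finset.sum_mul, ← Finset.sum_sub_distrib]
  exact Finset.sum_congr rfl fun i _ => by ring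

theorem crs_swap (p q : ℝ × ℝ) : |crs p q| = |crs q p| := by
  rw [← abs_neg]; congr 1; simp [crs]; ring

theorem volume_zon_le {ι : Type*} [DecidableEq ι] (p : ι → ℝ × ℝ) (s : Finset ι) :
    volume (zon p s) ≤ ENNReal.ofReal (2 * ∑ i ∈ s, ∑ j ∈ s, |crs (p i) (p j)|) := by
  induction s using Finset.induction_on with
  | empty =>
    have : zon p (∅ : Finset ι) ⊆ {0} := by
      rintro x ⟨t, -, rfl⟩
      simp
    refine (measure_mono this).trans ?_
    rw [measure_singleton]; simp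
  | insert k s hk ih =>
    have hsub : zon p (insert k s)
        ⊆ {y : ℝ × ℝ | ∃ x ∈ zon p s, ∃ τ : ℝ, |τ| ≤ 1 ∧ y = x + τ • p k} := by
      rintro x ⟨t, ht, rfl⟩
      refine ⟨∑ i ∈ s, t i • p i, ⟨t, ht, rfl⟩, t k, ht k, ?_⟩
      rw [Finset.sum_insert hk, add_comm]
    have hw : ∀ x ∈ zon p s, |crs x (p k)| ≤ ∑ i ∈ s, |crs (p i) (p k)| := by
      rintro x ⟨t, ht, rfl⟩
      rw [crs_sum]
      refine (Finset.abs_sum_le_sum_abs _ _).trans (Finset.sum_le_sum fun i _ => ?_)
      rw [abs_mul]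
      exact mul_le_of_le_one_left (abs_nonneg _) (ht i)
    refine (measure_mono hsub).trans ((volume_add_segment_le _ (isCompact_zon p s)
      (convex_zon p s) (p k) _ hw).trans ?_)
    refine (add_le_add_left ih _).trans ?_
    rw [← ENNReal.ofReal_add (by positivity) (by positivity)]
    apply ENNReal.ofReal_le_ofReal
    rw [Finset.sum_insert hk, Finset.sum_insert hk]
    have h0 : crs (p k) (p k) = 0 := by simp [crs]; ring
    have h1 : ∑ i ∈ s, ∑ j ∈ insert k s, |crs (p i) (p j)|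
        = ∑ i ∈ s, |crs (p i) (p k)| + ∑ i ∈ s, ∑ j ∈ s, |crs (p i) (p j)| := by
      rw [← Finset.sum_add_distrib]
      exact Finset.sum_congr rfl fun i _ => Finset.sum_insert hk
    have h2 : ∑ j ∈ s, |crs (p k) (p j)| = ∑ i ∈ s, |crs (p i) (p k)| :=
      Finset.sum_congr rfl fun i _ => crs_swap _ _
    rw [h1, h2, h0, abs_zero]
    linarith

end Vale.Agent.P243sym
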