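import Vale.Agent.P243_sym.Kkt
import Vale.Agent.P243_sym.Zonogon
import Vale.Agent.P243_sym.Angle

open MeasureTheory Set Submodule
open scoped ENNReal InnerProductSpace

namespace Vale.Agent.P243sym

theorem zon_shadow {ι : Type*} [Fintype ι] [DecidableEq ι] (K : Set E3) (hK : IsCompact K)
    (hsymK : ∀ x ∈ K, -x ∈ K) (A : E3 ≃L[ℝ] E3) (b : OrthonormalBasis (Fin 3) ℝ E3)
    (hb0 : ‖A (b 0)‖ = ‖(A : E3 →L[ℝ] E3)‖)
    (n : ι → E3) (hn : ∀ i, n i ∈ Contact K (A : E3 →L[ℝ] E3)) (p : ι → ℝ × ℝ)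
    (h1 : ∀ x, inner ℝ (b 1) x = ∑ i, (p i).1 * inner ℝ (n i) x)
    (h2 : ∀ x, inner ℝ (b 2) x = ∑ i, (p i).2 * inner ℝ (n i) x) :
    ENNReal.ofReal ‖(A : E3 →L[ℝ] E3)‖ * minShadow K
      ≤ ENNReal.ofReal |LinearMap.det (A : E3 →ₗ[ℝ] E3)|
        * ENNReal.ofReal (2 * ∑ i, ∑ j, |crs (p i) (p j)|) := by
  have hb0ne : b 0 ≠ 0 := b.orthonormal.ne_zero 0
  have hv0 : A (b 0) ≠ 0 := by simpa using hb0ne
  have hvpos : 0 < ‖A (b 0)‖ := norm_pos_iff.2 hv0
  have hu1 : ‖‖A (b 0)‖⁻¹ • A (b 0)‖ = 1 := by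
    rw [norm_smul, norm_inv, norm_norm, inv_mul_cancel₀ hvpos.ne']
  have hmain := shadow_le A b K hK (zon p Finset.univ) (isCompact_zon p Finset.univ) (by
    intro y hy
    refine ⟨(b.repr (A.symm y) 1, b.repr (A.symm y) 2), ?_, b.repr (A.symm y) 0, ?_⟩
    · refine ⟨fun i => inner ℝ (n i) (A.symm y), fun i => ?_, ?_⟩
      · rw [abs_le]
        constructor
        · have := (hn i).2 (-A.symm y) (by simpa using hsymK y hy)
          rw [inner_neg_right] at this
          linarith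
        · exact (hn i).2 (A.symm y) (by simpa using hy)
      · ext
        · rw [Prod.fst_sum]
          change b.repr (A.symm y) 1 = _
          rw [OrthonormalBasis.repr_apply_apply, h1]
          refine Finset.sum_congr rfl fun i _ => ?_
          simp [mul_comm]
        · rw [Prod.snd_sum]
          change b.repr (A.symm y) 2 = _
          rw [OrthonormalBasis.repr_apply_apply, h2]
          refine Finset.sum_congr rfl fun i _ => ?_
          simp [mul_comm]
    · have h := b.sum_repr (A.symm y)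
      rw [Fin.sum_univ_three] at h
      rw [framePt, h]
      simp)
  have hmin : minShadow K ≤ shadowArea (‖A (b 0)‖⁻¹ • A (b 0)) K := by
    have hmem : ‖A (b 0)‖⁻¹ • A (b 0) ∈ Metric.sphere (0 : E3) 1 := by
      rw [mem_sphere_zero_iff_norm]; exact hu1
    exact iInf_le (fun u : Metric.sphere (0 : E3) 1 => shadowArea (u : E3) K) ⟨_, hmem⟩
  rw [← hb0]
  calc ENNReal.ofReal ‖A (b 0)‖ * minShadow K
      ≤ ENNReal.ofReal ‖A (b 0)‖ * shadowArea (‖A (b 0)‖⁻¹ • A (b 0)) K := by gcongr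
    _ ≤ _ := hmain
    _ ≤ _ := by gcongr; exact volume_zon_le p Finset.univ

end Vale.Agent.P243sym
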